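import Vale.Agent.Lib.P237.Eq.BMGen
import Vale.Agent.Lib.P237.PettyFub

/-!
# Brunn-Minkowski equality for a convex body against a symmetric body: the translate
-/

open MeasureTheory Set Filter Topology Module
open scoped RealInnerProductSpace Pointwise ENNReal Interval

namespace Vale.Agent.Lib.P237.Petty.Eq

open Vale.Agent.Lib.P237 Vale.Agent.Lib.P237.Petty

noncomputable section

variable {K M X : Set E3} {ε ε' l r : ℝ}

lemma moment_eq (b : OrthonormalBasis (Fin 3) ℝ E3) (hX : GBody X ε) :
    ∫ x in X, ⟪b 2, x⟫ = ∫ t, t * aa b X t := by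
  have hc : Continuous fun x : E3 => ⟪b 2, x⟫ := continuous_const.inner continuous_id
  rw [fubini_sec b hX.compact.measurableSet (hc.continuousOn.integrableOn_compact hX.compact)]
  refine integral_congr_ae (ae_of_all _ fun t => ?_)
  simp only [inner_pt_two, setIntegral_const, smul_eq_mul, Measure.real, aa]
  ring

lemma moment_sym (b : OrthonormalBasis (Fin 3) ℝ E3) (hM : SymBody M ε') :
    ∫ t, t * aa b M t = 0 := by
  have h := integral_neg_eq_self (fun t => t * aa b M t) volume
  simp only [hM.aa_neg b, neg_mul] at h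
  rw [integral_neg] at h
  linarith

lemma moment_diff (b : OrthonormalBasis (Fin 3) ℝ E3) (hK : GBody K ε) (hM : SymBody M ε')
    (h0 : 0 < l) (h1 : l < 1) (hV : volume K = volume M) (hC : volume (midSet l K M) ≤ volume K) :
    ∫ t, t * aa b K t = (GBody.dn b M - GBody.dn b K) * (volume K).toReal := by
  have hG := SymBody.toG hM
  obtain ⟨hW, hp⟩ := profile_eq b hK hG h0 h1 hV hC
  have hK1 := hK.shifted_integral b (fun t => t)
  have hM1 := hG.shifted_integral b (fun t => t)
  rw [moment_sym b hM] at hM1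
  rw [← hW] at hM1
  have hWpos : 0 < GBody.up b K + GBody.dn b K := add_pos (hK.up_pos b) (hK.dn_pos b)
  have hmass := hG.shifted_mass b
  rw [← hW, ← hV] at hmass
  set W := GBody.up b K + GBody.dn b K with hWd
  have e1 : ∫ s in (0 : ℝ)..W, (s - GBody.dn b K) * GBody.shifted b K s
      = ∫ s in (0 : ℝ)..W, (s - GBody.dn b K) * GBody.shifted b M s := by
    rw [intervalIntegral.integral_of_le hWpos.le, intervalIntegral.integral_of_le hWpos.le,
      integral_Ioc_eq_integral_Ioo, integral_Ioc_eq_integral_Ioo]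
    refine setIntegral_congr_fun measurableSet_Ioo fun s hs => ?_
    rw [hp s hs]
  have hi : IntervalIntegrable (fun s => (s - GBody.dn b M) * GBody.shifted b M s) volume 0 W :=
    (hG.shifted_int b 0 W).continuousOn_mul (by fun_prop)
  have hj : IntervalIntegrable (fun s => (GBody.dn b M - GBody.dn b K) * GBody.shifted b M s)
      volume 0 W := (hG.shifted_int b 0 W).const_mul _
  have e2 : ∫ s in (0 : ℝ)..W, (s - GBody.dn b K) * GBody.shifted b M s
      = (∫ s in (0 : ℝ)..W, (s - GBody.dn b M) * GBody.shifted b M s)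
        + ∫ s in (0 : ℝ)..W, (GBody.dn b M - GBody.dn b K) * GBody.shifted b M s := by
    rw [← intervalIntegral.integral_add hi hj]
    refine intervalIntegral.integral_congr fun s _ => ?_
    ring
  rw [← hK1, e1, e2, hM1, intervalIntegral.integral_const_mul, hmass, zero_add]

/-- The barycenter of a compact set of positive volume. -/
def bary (X : Set E3) : E3 := (volume X).toReal⁻¹ • ∫ x in X, x

lemma GBody.volume_pos (hX : GBody X ε) : 0 < (volume X).toReal := by
  have hpos : 0 < volume (Metric.closedBall (0 : E3) ε) :=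
    Metric.measure_closedBall_pos _ _ hX.pos
  exact ENNReal.toReal_pos (hpos.trans_le (measure_mono hX.ball)).ne' hX.compact.measure_lt_top.ne

lemma inner_bary (b : OrthonormalBasis (Fin 3) ℝ E3) (hX : GBody X ε) :
    ⟪b 2, bary X⟫ = (volume X).toReal⁻¹ * ∫ t, t * aa b X t := by
  have hint : Integrable (fun x : E3 => x) (volume.restrict X) :=
    continuous_id.continuousOn.integrableOn_compact hX.compact
  rw [bary, inner_smul_right, ← integral_inner hint, moment_eq b hX]

/-- The support function of `K` is the one of `M` shifted by the barycenter. -/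
lemma supp_eq_bary (hK : GBody K ε) (hM : SymBody M ε') (h0 : 0 < l) (h1 : l < 1)
    (hV : volume K = volume M) (hC : volume (midSet l K M) ≤ volume K) {v : E3} (hv : ‖v‖ = 1) :
    supp K v = supp M v + ⟪v, bary K⟫ := by
  have hy : ‖-v‖ = 1 := by rw [norm_neg]; exact hv
  obtain ⟨b, hb⟩ := exists_basis hy
  have hvb : v = -(b 2) := by rw [hb, neg_neg]
  have h2 := moment_diff b hK hM h0 h1 hV hC
  have h3 := inner_bary b hK
  have hVp := hK.volume_pos
  rw [h2] at h3
  have h4 : ⟪b 2, bary K⟫ = GBody.dn b M - GBody.dn b K := by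
    rw [h3]
    field_simp
  have h5 : GBody.dn b M = supp M v := by
    rw [GBody.dn, ← hvb]
  have h6 : GBody.dn b K = supp K v := by
    rw [GBody.dn, ← hvb]
  have h7 : ⟪v, bary K⟫ = -⟪b 2, bary K⟫ := by
    rw [hvb, inner_neg_left]
  rw [h7, h4, h5, h6]
  ring

theorem bm_eq_general (hK : GBody K ε) (hM : SymBody M ε') (h0 : 0 < l) (h1 : l < 1)
    (hV : volume K = volume M) (hC : volume (midSet l K M) ≤ volume K) :
    K = (fun x => x + bary K) '' M := by
  have hs := fun v (hv : ‖v‖ = 1) => supp_eq_bary hK hM h0 h1 hV hC hv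
  apply Subset.antisymm
  · intro x hx
    refine ⟨x - bary K, ?_, by simp⟩
    apply mem_of_supp hM.compact hM.convex hM.nonempty
    intro u hu
    have h2 := hK.le_supp hx u
    rw [hs u hu] at h2
    have e : ⟪bary K, u⟫ = ⟪u, bary K⟫ := real_inner_comm _ _
    rw [inner_sub_left, e]
    linarith
  · rintro _ ⟨x, hx, rfl⟩
    apply mem_of_supp hK.compact hK.convex hK.nonempty
    intro u hu
    have h2 := hM.le_supp hx u
    have e : ⟪bary K, u⟫ = ⟪u, bary K⟫ := real_inner_comm _ _
    rw [hs u hu, inner_add_left, e]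
    linarith

/-- The scaling form of the equality case for a convex body against a symmetric one. -/
theorem eq_smul_general (hK : GBody K ε) (hM : SymBody M ε') {c e : ℝ} (hc : 0 < c)
    (he : 0 < e) (hV : volume M = ENNReal.ofReal (c ^ 3) * volume K)
    (hadd : volume (K + e • M) ≤ ENNReal.ofReal ((1 + e * c) ^ 3) * volume K) :
    K = (fun x => x + bary K) '' (c⁻¹ • M) := by
  have hd : 0 < 1 + e * c := by positivity
  set M' : Set E3 := c⁻¹ • M with hM'
  have hMb : SymBody M' (c⁻¹ * ε') := hM.smul (inv_pos.mpr hc)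
  set l : ℝ := e * c / (1 + e * c) with hl
  have hl0 : 0 < l := by positivity
  have hl1 : l < 1 := by
    rw [hl, div_lt_one hd]
    linarith
  have hVM : volume K = volume M' := by
    rw [hM', volume_smul_E3 _ (inv_pos.mpr hc), hV, ← mul_assoc, ← ENNReal.ofReal_mul (by positivity)]
    have : c⁻¹ ^ 3 * c ^ 3 = 1 := by
      field_simp
    rw [this]
    simp
  have hmid : midSet l K M' = (1 + e * c)⁻¹ • (K + e • M) := by
    ext z
    constructor
    · rintro ⟨x, hx, _, ⟨y, hy, rfl⟩, rfl⟩
      refine ⟨x + e • y, ⟨x, hx, e • y, ⟨y, hy, rfl⟩, rfl⟩, ?_⟩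
      show (1 + e * c)⁻¹ • (x + e • y) = _
      simp only [smul_add, smul_smul, hl]
      congr 2
      · field_simp
        ring
      · field_simp
    · rintro ⟨_, ⟨x, hx, _, ⟨y, hy, rfl⟩, rfl⟩, rfl⟩
      refine ⟨x, hx, c⁻¹ • y, ⟨y, hy, rfl⟩, ?_⟩
      show (1 + e * c)⁻¹ • (x + e • y) = _
      simp only [smul_add, smul_smul, hl]
      congr 2
      · field_simp
        ring
      · field_simp
  have hC : volume (midSet l K M') ≤ volume K := by
    rw [hmid, volume_smul_E3 _ (inv_pos.mpr hd)]
    calc ENNReal.ofReal ((1 + e * c)⁻¹ ^ 3) * volume (K + e • M)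
        ≤ ENNReal.ofReal ((1 + e * c)⁻¹ ^ 3) * (ENNReal.ofReal ((1 + e * c) ^ 3) * volume K) := by
          gcongr
      _ = volume K := by
          rw [← mul_assoc, ← ENNReal.ofReal_mul (by positivity)]
          have : (1 + e * c)⁻¹ ^ 3 * (1 + e * c) ^ 3 = 1 := by
            field_simp
          rw [this]
          simp
  exact bm_eq_general hK hMb hl0 hl1 hVM hC

/-- The same statement in the form `M = c • (K - g)`, with the hypotheses on `K` spelled out. -/
theorem eq_smul_general' (hK : IsCompact K) (hKc : Convex ℝ K) (hr : 0 < r)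
    (hb : Metric.closedBall (0 : E3) r ⊆ K) (hM : SymBody M ε') {c e : ℝ} (hc : 0 < c)
    (he : 0 < e) (hV : volume M = ENNReal.ofReal (c ^ 3) * volume K)
    (hadd : volume (K + e • M) ≤ ENNReal.ofReal ((1 + e * c) ^ 3) * volume K) :
    ∃ g : E3, M = c • ((fun x => x + (-g)) '' K) := by
  refine ⟨bary K, ?_⟩
  have h := eq_smul_general (ε := r) ⟨hr, hK, hKc, hb⟩ hM hc he hV hadd
  set g := bary K
  ext z
  constructor
  · intro hz
    have hm : c⁻¹ • z ∈ c⁻¹ • M := ⟨z, hz, rfl⟩
    have hk : c⁻¹ • z + g ∈ K := by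
      rw [h]
      exact ⟨_, hm, rfl⟩
    refine ⟨c⁻¹ • z, ⟨_, hk, by simp⟩, ?_⟩
    show c • c⁻¹ • z = z
    rw [smul_smul, mul_inv_cancel₀ hc.ne', one_smul]
  · rintro ⟨_, ⟨x, hx, rfl⟩, rfl⟩
    rw [h] at hx
    obtain ⟨_, ⟨m, hm, rfl⟩, rfl⟩ := hx
    show c • (c⁻¹ • m + g + -g) ∈ M
    rw [add_neg_cancel_right, smul_smul, mul_inv_cancel₀ hc.ne', one_smul]
    exact hm

end

end Vale.Agent.Lib.P237.Petty.Eq
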