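import Vale.Agent.Lib.P237.Eq.OneD
import Vale.Agent.Lib.P237.PettyEq
import Vale.Agent.Lib.P237.PettyGood

/-!
# The equality case of Brunn-Minkowski: a convex body against a symmetric convex body
-/

open MeasureTheory Set Filter Topology Module
open scoped RealInnerProductSpace Pointwise ENNReal Interval

namespace Vale.Agent.Lib.P237.Petty.Eq

open Vale.Agent.Lib.P237 Vale.Agent.Lib.P237.Petty

noncomputable section

/-- A compact convex set containing a ball around the origin. -/
structure GBody (X : Set E3) (ε : ℝ) : Prop where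
  pos : 0 < ε
  compact : IsCompact X
  convex : Convex ℝ X
  ball : Metric.closedBall (0 : E3) ε ⊆ X

lemma SymBody.toG {X : Set E3} {ε : ℝ} (h : SymBody X ε) : GBody X ε :=
  ⟨h.pos, h.compact, h.convex, h.ball⟩

namespace GBody

variable (b : OrthonormalBasis (Fin 3) ℝ E3) {X : Set E3} {ε : ℝ}

lemma nonempty (hX : GBody X ε) : X.Nonempty :=
  ⟨0, hX.ball (Metric.mem_closedBall_self hX.pos.le)⟩

lemma bddAbove (hX : GBody X ε) (y : E3) : BddAbove ((fun x : E3 => ⟪x, y⟫) '' X) :=
  (hX.compact.image (continuous_id.inner continuous_const)).bddAbove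

lemma le_supp (hX : GBody X ε) {x : E3} (hx : x ∈ X) (y : E3) : ⟪x, y⟫ ≤ supp X y :=
  le_csSup (hX.bddAbove y) ⟨x, hx, rfl⟩

lemma attained (hX : GBody X ε) (y : E3) : ∃ x ∈ X, ⟪x, y⟫ = supp X y := by
  have hc : IsCompact ((fun x : E3 => ⟪x, y⟫) '' X) :=
    hX.compact.image (continuous_id.inner continuous_const)
  have hm := hc.sSup_mem (hX.nonempty.image _)
  obtain ⟨x, hx, he⟩ := hm
  exact ⟨x, hx, he⟩

lemma supp_pos (hX : GBody X ε) {y : E3} (hy : ‖y‖ = 1) : 0 < supp X y := by
  have hm : ε • y ∈ X := hX.ball (by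
    rw [mem_closedBall_zero_iff, norm_smul, hy, mul_one, Real.norm_of_nonneg hX.pos.le])
  have := hX.le_supp hm y
  rw [inner_smul_left, real_inner_self_eq_norm_sq, hy] at this
  simp only [conj_trivial, one_pow, mul_one] at this
  exact hX.pos.trans_le this

/-- Upper end of the support in direction `b 2`. -/
abbrev up (b : OrthonormalBasis (Fin 3) ℝ E3) (X : Set E3) : ℝ := supp X (b 2)

/-- Lower end, with a sign, of the support in direction `b 2`. -/
abbrev dn (b : OrthonormalBasis (Fin 3) ℝ E3) (X : Set E3) : ℝ := supp X (-(b 2))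

lemma up_pos (hX : GBody X ε) : 0 < up b X := hX.supp_pos (b.norm_eq_one 2)

lemma dn_pos (hX : GBody X ε) : 0 < dn b X := hX.supp_pos (by rw [norm_neg]; exact b.norm_eq_one 2)

lemma inner_b_le (hX : GBody X ε) {x : E3} (hx : x ∈ X) : ⟪b 2, x⟫ ≤ up b X := by
  rw [real_inner_comm]
  exact hX.le_supp hx _

lemma neg_dn_le (hX : GBody X ε) {x : E3} (hx : x ∈ X) : -dn b X ≤ ⟪b 2, x⟫ := by
  have := hX.le_supp hx (-(b 2))
  rw [inner_neg_right, real_inner_comm] at this
  linarith

lemma sec_nonempty (hX : GBody X ε) {t : ℝ} (ht : t ∈ Icc (-dn b X) (up b X)) :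
    (sec b X t).Nonempty := by
  obtain ⟨x₁, hx₁, he₁⟩ := hX.attained (b 2)
  obtain ⟨x₂, hx₂, he₂⟩ := hX.attained (-(b 2))
  have hu := hX.up_pos b
  have hd := hX.dn_pos b
  set W := up b X + dn b X with hW
  have hWpos : 0 < W := by positivity
  set r := (t + dn b X) / W with hr
  have hr0 : 0 ≤ r := div_nonneg (by linarith [ht.1]) hWpos.le
  have hr1 : 0 ≤ 1 - r := by
    rw [hr, sub_nonneg, div_le_one hWpos]
    linarith [ht.2]
  have hz : r • x₁ + (1 - r) • x₂ ∈ X := hX.convex hx₁ hx₂ hr0 hr1 (by ring)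
  refine ⟨(coord b (r • x₁ + (1 - r) • x₂)).1, ?_⟩
  show pt b _ t ∈ X
  have e : t = (coord b (r • x₁ + (1 - r) • x₂)).2 := by
    simp only [coord, inner_add_right, inner_smul_right]
    rw [real_inner_comm, he₁]
    rw [inner_neg_right, real_inner_comm] at he₂
    have h2 : ⟪b 2, x₂⟫ = -dn b X := by linarith
    rw [h2, hr]
    field_simp
    rw [hW]
    ring
  rw [e, pt_coord]
  exact hz

lemma sec_empty (hX : GBody X ε) {t : ℝ} (ht : t ∉ Icc (-dn b X) (up b X)) : sec b X t = ∅ := by
  ext p
  simp only [mem_empty_iff_false, iff_false]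
  intro hp
  have h1 : pt b p t ∈ X := hp
  have h2 := hX.inner_b_le b h1
  have h3 := hX.neg_dn_le b h1
  rw [inner_pt_two] at h2 h3
  exact ht ⟨h3, h2⟩

lemma aa_zero (hX : GBody X ε) {t : ℝ} (ht : t ∉ Icc (-dn b X) (up b X)) : aa b X t = 0 := by
  unfold aa
  rw [hX.sec_empty b ht]
  simp

lemma rr_concave' (hX : GBody X ε) : ConcaveOn ℝ (Icc (-dn b X) (up b X)) (rr b X) := by
  refine ⟨convex_Icc _ _, ?_⟩
  intro s hs t ht a c ha hc hac
  have := rr_comb b hX.compact hX.convex ha hc hac (hX.sec_nonempty b hs) (hX.sec_nonempty b ht)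
  simpa [smul_eq_mul] using this

lemma rr_cont (hX : GBody X ε) : ContinuousOn (rr b X) (Ioo (-dn b X) (up b X)) := by
  have h := (hX.rr_concave' b).continuousOn_interior
  rwa [interior_Icc] at h

lemma aa_cont (hX : GBody X ε) : ContinuousOn (aa b X) (Ioo (-dn b X) (up b X)) := by
  have h := (hX.rr_cont b).pow 2
  exact h.congr fun t _ => aa_eq b X t

lemma rr_zero_pos (hX : GBody X ε) : 0 < rr b X 0 := by
  have hsub : Metric.closedBall (0 : E2) ε ⊆ sec b X 0 := by
    intro p hp
    apply hX.ball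
    rw [mem_closedBall_zero_iff] at hp ⊢
    have h := norm_sq_pt b p 0
    have h2 : ‖pt b p 0‖ ^ 2 ≤ ε ^ 2 := by
      rw [h]
      have := pow_le_pow_left₀ (norm_nonneg p) hp 2
      nlinarith
    exact (pow_le_pow_iff_left₀ (norm_nonneg _) hX.pos.le two_ne_zero).mp h2
  have hpos : 0 < volume (Metric.closedBall (0 : E2) ε) :=
    Metric.measure_closedBall_pos _ _ hX.pos
  have hv : 0 < volume (sec b X 0) := hpos.trans_le (measure_mono hsub)
  unfold rr rootArea
  apply Real.sqrt_pos.mpr
  exact ENNReal.toReal_pos hv.ne' (sec_compact b hX.compact 0).measure_lt_top.ne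

lemma rr_pos (hX : GBody X ε) {t : ℝ} (ht : t ∈ Ioo (-dn b X) (up b X)) : 0 < rr b X t := by
  have hu := hX.up_pos b
  have hd := hX.dn_pos b
  have h0m : (0 : ℝ) ∈ Icc (-dn b X) (up b X) := ⟨by linarith, hu.le⟩
  have hum : up b X ∈ Icc (-dn b X) (up b X) := ⟨by linarith, le_rfl⟩
  have hdm : -dn b X ∈ Icc (-dn b X) (up b X) := ⟨le_rfl, by linarith⟩
  have hr := hX.rr_zero_pos b
  rcases le_total 0 t with h0 | h0
  · set r := t / up b X with hrd
    have hr0 : 0 ≤ r := div_nonneg h0 hu.le
    have hr1 : 0 < 1 - r := by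
      rw [hrd, sub_pos, div_lt_one hu]
      exact ht.2
    have := rr_comb b hX.compact hX.convex hr1.le hr0 (by ring) (hX.sec_nonempty b h0m)
      (hX.sec_nonempty b hum)
    have e : (1 - r) * 0 + r * up b X = t := by
      rw [hrd]
      field_simp
      ring
    rw [e] at this
    have h1 : 0 ≤ r * rr b X (up b X) := mul_nonneg hr0 (rootArea_nonneg _)
    have h2 : 0 < (1 - r) * rr b X 0 := mul_pos hr1 hr
    linarith
  · set r := -t / dn b X with hrd
    have hr0 : 0 ≤ r := div_nonneg (by linarith) hd.le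
    have hr1 : 0 < 1 - r := by
      rw [hrd, sub_pos, div_lt_one hd]
      linarith [ht.1]
    have := rr_comb b hX.compact hX.convex hr1.le hr0 (by ring) (hX.sec_nonempty b h0m)
      (hX.sec_nonempty b hdm)
    have e : (1 - r) * 0 + r * (-dn b X) = t := by
      rw [hrd]
      field_simp
      ring
    rw [e] at this
    have h1 : 0 ≤ r * rr b X (-dn b X) := mul_nonneg hr0 (rootArea_nonneg _)
    have h2 : 0 < (1 - r) * rr b X 0 := mul_pos hr1 hr
    linarith

lemma aa_pos (hX : GBody X ε) {t : ℝ} (ht : t ∈ Ioo (-dn b X) (up b X)) : 0 < aa b X t := by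
  rw [aa_eq]
  exact pow_pos (hX.rr_pos b ht) 2

/-- The total mass on the support. -/
lemma integral_supp (hX : GBody X ε) {f : ℝ → ℝ} :
    ∫ t, f t * aa b X t = ∫ t in (-dn b X)..(up b X), f t * aa b X t := by
  have hu := hX.up_pos b
  have hd := hX.dn_pos b
  rw [intervalIntegral.integral_of_le (by linarith), ← integral_Icc_eq_integral_Ioc]
  symm
  apply setIntegral_eq_integral_of_forall_compl_eq_zero
  intro t ht
  rw [hX.aa_zero b ht, mul_zero]

/-- The profile in the coordinate starting at the lower end of the support. -/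
def shifted (b : OrthonormalBasis (Fin 3) ℝ E3) (X : Set E3) (s : ℝ) : ℝ := aa b X (s - dn b X)

lemma shifted_cont (hX : GBody X ε) : ContinuousOn (shifted b X) (Ioo 0 (up b X + dn b X)) := by
  unfold shifted
  refine (hX.aa_cont b).comp (by fun_prop) ?_
  intro s hs
  exact ⟨by linarith [hs.1], by linarith [hs.2]⟩

lemma shifted_pos (hX : GBody X ε) {s : ℝ} (hs : s ∈ Ioo 0 (up b X + dn b X)) : 0 < shifted b X s :=
  hX.aa_pos b ⟨by linarith [hs.1], by linarith [hs.2]⟩

lemma shifted_int (hX : GBody X ε) (u v : ℝ) : IntervalIntegrable (shifted b X) volume u v := by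
  have h := ((aa_integrable b hX.compact).comp_sub_right (dn b X)).intervalIntegrable (a := u) (b := v)
  exact h

/-- Weighted integrals in the shifted coordinate. -/
lemma shifted_integral (hX : GBody X ε) (f : ℝ → ℝ) :
    ∫ s in (0 : ℝ)..(up b X + dn b X), f (s - dn b X) * shifted b X s = ∫ t, f t * aa b X t := by
  have h := intervalIntegral.integral_comp_sub_right (a := 0) (b := up b X + dn b X)
    (fun t => f t * aa b X t) (dn b X)
  unfold shifted
  rw [h, hX.integral_supp b]
  congr 1 <;> ring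

lemma shifted_mass (hX : GBody X ε) :
    ∫ s in (0 : ℝ)..(up b X + dn b X), shifted b X s = (volume X).toReal := by
  have h := hX.shifted_integral b (fun _ => 1)
  simp only [one_mul] at h
  rw [h, integral_aa b hX.compact]

end GBody

variable {K M : Set E3} {ε ε' l : ℝ}

lemma GBody.midSet (l : ℝ) (hK : GBody K ε) (hM : GBody M ε') :
    GBody (midSet l K M) (min ε ε') := by
  refine ⟨lt_min hK.pos hM.pos, midSet_compact hK.compact hM.compact,
    midSet_convex hK.convex hM.convex, ?_⟩
  intro z hz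
  rw [mem_closedBall_zero_iff] at hz
  refine ⟨z, hK.ball ?_, z, hM.ball ?_, ?_⟩
  · rw [mem_closedBall_zero_iff]
    exact hz.trans (min_le_left _ _)
  · rw [mem_closedBall_zero_iff]
    exact hz.trans (min_le_right _ _)
  · rw [← add_smul]
    simp

lemma gsupp_midSet (hK : GBody K ε) (hM : GBody M ε') (h0 : 0 ≤ l) (h1 : l ≤ 1) (y : E3) :
    supp (midSet l K M) y = (1 - l) * supp K y + l * supp M y := by
  have hC := GBody.midSet l hK hM
  apply le_antisymm
  · obtain ⟨z, ⟨u, hu, v, hv, rfl⟩, he⟩ := hC.attained y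
    rw [← he, inner_add_left, inner_smul_left, inner_smul_left]
    simp only [conj_trivial]
    have := mul_le_mul_of_nonneg_left (hK.le_supp hu y) (by linarith : 0 ≤ 1 - l)
    have := mul_le_mul_of_nonneg_left (hM.le_supp hv y) h0
    linarith
  · obtain ⟨u, hu, hue⟩ := hK.attained y
    obtain ⟨v, hv, hve⟩ := hM.attained y
    have := hC.le_supp (⟨u, hu, v, hv, rfl⟩ : (1 - l) • u + l • v ∈ Vale.Agent.Lib.P237.Petty.midSet l K M) y
    rw [inner_add_left, inner_smul_left, inner_smul_left, hue, hve] at this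
    simpa using this

/-- In each direction, the widths agree and the shifted section profiles coincide. -/
theorem profile_eq (b : OrthonormalBasis (Fin 3) ℝ E3) (hK : GBody K ε) (hM : GBody M ε') (h0 : 0 < l)
    (h1 : l < 1) (hV : volume K = volume M) (hC : volume (midSet l K M) ≤ volume K) :
    GBody.up b K + GBody.dn b K = GBody.up b M + GBody.dn b M ∧
      ∀ s ∈ Ioo 0 (GBody.up b K + GBody.dn b K), GBody.shifted b K s = GBody.shifted b M s := by
  have hCb := GBody.midSet l hK hM
  have hp : 0 < 1 - l := by linarith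
  have hu1 := hK.up_pos b
  have hd1 := hK.dn_pos b
  have hu2 := hM.up_pos b
  have hd2 := hM.dn_pos b
  have hsU := gsupp_midSet hK hM h0.le h1.le (b 2)
  have hsD := gsupp_midSet hK hM h0.le h1.le (-(b 2))
  have hW : GBody.up b (midSet l K M) + GBody.dn b (midSet l K M)
      = (1 - l) * (GBody.up b K + GBody.dn b K) + l * (GBody.up b M + GBody.dn b M) := by
    simp only [GBody.up, GBody.dn]
    rw [hsU, hsD]
    ring
  refine one_d_eq_strong (a₁ := GBody.shifted b K) (a₂ := GBody.shifted b M)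
    (c := GBody.shifted b (midSet l K M)) (I := (volume K).toReal) (p := 1 - l) (q := l)
    (by positivity) (by positivity) hp h0 (by ring)
    (hK.shifted_cont b) (hM.shifted_cont b)
    (fun s hs => hK.shifted_pos b hs) (fun s hs => hM.shifted_pos b hs)
    (hK.shifted_int b _ _) (hM.shifted_int b _ _)
    (hK.shifted_mass b) (by rw [hV]; exact hM.shifted_mass b)
    (by rw [← hW]; exact hCb.shifted_cont b)
    (fun s _ => aa_nonneg b _ _)
    (hCb.shifted_int b _ _)
    (by
      rw [← hW, hCb.shifted_mass b]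
      exact ENNReal.toReal_mono hK.compact.measure_lt_top.ne hC)
    ?_
  intro s hs t ht
  unfold GBody.shifted
  rw [sqrt_aa, sqrt_aa, aa_eq]
  have hA := hK.sec_nonempty b (t := s - GBody.dn b K) ⟨by linarith [hs.1], by linarith [hs.2]⟩
  have hB := hM.sec_nonempty b (t := t - GBody.dn b M) ⟨by linarith [ht.1], by linarith [ht.2]⟩
  have e : (1 - l) * s + l * t - GBody.dn b (midSet l K M)
      = (1 - l) * (s - GBody.dn b K) + l * (t - GBody.dn b M) := by
    simp only [GBody.dn]
    rw [hsD]
    ring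
  rw [e]
  have hbm := bm_plane (sec_compact b hK.compact _) (sec_compact b hM.compact _)
    (sec_compact b hCb.compact ((1 - l) * (s - GBody.dn b K) + l * (t - GBody.dn b M))) hA hB h0.le h1.le
    (fun x hx y hy => by
      show pt b ((1 - l) • x + l • y) ((1 - l) * (s - GBody.dn b K) + l * (t - GBody.dn b M))
        ∈ Vale.Agent.Lib.P237.Petty.midSet l K M
      rw [pt_comb]
      exact ⟨_, hx, _, hy, rfl⟩)
  have hnn : 0 ≤ (1 - l) * rr b K (s - GBody.dn b K) + l * rr b M (t - GBody.dn b M) :=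
    add_nonneg (mul_nonneg hp.le (rootArea_nonneg _)) (mul_nonneg h0.le (rootArea_nonneg _))
  exact pow_le_pow_left₀ hnn hbm 2

end

end Vale.Agent.Lib.P237.Petty.Eq
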