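import Vale.Agent.Lib.P237.PettyOneD3

open MeasureTheory Set intervalIntegral Real Filter Topology

namespace Vale.Agent.Lib.P237.PettyOneD

open Vale.Agent.Lib.P237.PettyTable

noncomputable section

variable {ρ : ℝ → ℝ}

/-- The pointwise inequality, with the rational lower bound for `π` on the right. -/
theorem pointwise2 (hanti : AntitoneOn ρ (Icc 0 1)) (hlow : ∀ t ∈ Icc (0 : ℝ) 1, rho0 t ≤ ρ t)
    {t : ℝ} (ht : t ∈ Icc (0 : ℝ) 1) :
    (ρ t + rho0 t) * (c0 - 1 / 5 + t ^ 2 - ρ t ^ 2 / 5) ≤ 3141592 / 1000000 + 4 * CC ρ t := by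
  -- choose the cell
  obtain ⟨n, hn, hn1, hn2⟩ : ∃ n : ℕ, n < 500 ∧ (n : ℝ) / 500 ≤ t ∧ t ≤ ((n : ℝ) + 1) / 500 := by
    by_cases h1 : t = 1
    · refine ⟨499, by norm_num, ?_, ?_⟩
      · rw [h1]; norm_num
      · rw [h1]; norm_num
    · have hlt : t < 1 := lt_of_le_of_ne ht.2 h1
      refine ⟨⌊500 * t⌋₊, ?_, ?_, ?_⟩
      · have : (⌊500 * t⌋₊ : ℝ) ≤ 500 * t := Nat.floor_le (by linarith [ht.1])
        have h2 : (⌊500 * t⌋₊ : ℝ) < 500 := by linarith
        exact_mod_cast h2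
      · have : (⌊500 * t⌋₊ : ℝ) ≤ 500 * t := Nat.floor_le (by linarith [ht.1])
        rw [div_le_iff₀ (by norm_num)]
        linarith
      · have : 500 * t < (⌊500 * t⌋₊ : ℝ) + 1 := Nat.lt_floor_add_one _
        rw [le_div_iff₀ (by norm_num)]
        linarith
  set y := ρ t with hy
  have hn0 : (0 : ℝ) ≤ (n : ℝ) / 500 := by positivity
  have hlow_t : rho0 t ≤ y := hlow t ht
  have hy0 : 0 ≤ y := (rho0_nonneg t).trans hlow_t
  have h1 : (ell n : ℝ) / 1000000 ≤ y :=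
    (ell_le_rho0 hn).trans ((rho0_anti ht.1 hn2).trans hlow_t)
  have hphi := phi_nonneg hn h1 hy0
  have hC : (1 / 500) * sumPos (bL.take n) y ≤ CC ρ t :=
    (CC_lower hanti hlow ht n hn1).trans (CC_mono hanti hlow hn0 hn1 ht.2)
  have hCnn : 0 ≤ CC ρ t := CC_nonneg hanti hlow ht
  have hb : rho0 t ≤ (Bv n : ℝ) / 1000000 :=
    (rho0_anti hn0 hn1).trans (rho0_le_b (by omega))
  have hD : c0 - 1 / 5 + t ^ 2 ≤ (DD n : ℝ) / 1000000 := by
    have hc := c0_le
    have e : (DD n : ℝ) / 1000000 = 1.650552 + (((n : ℝ) + 1) / 500) ^ 2 := by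
      unfold DD; push_cast; ring
    rw [e]
    have : t ^ 2 ≤ (((n : ℝ) + 1) / 500) ^ 2 := by
      apply pow_le_pow_left₀ ht.1 hn2
    linarith
  set X := c0 - 1 / 5 + t ^ 2 - y ^ 2 / 5 with hX
  by_cases hXs : X ≤ 0
  · have : (y + rho0 t) * X ≤ 0 :=
      mul_nonpos_of_nonneg_of_nonpos (add_nonneg hy0 (rho0_nonneg t)) hXs
    linarith
  · replace hXs := not_le.mp hXs
    have h2 : (y + rho0 t) * X ≤ (y + (Bv n : ℝ) / 1000000) * X :=
      mul_le_mul_of_nonneg_right (by linarith) hXs.le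
    have h3 : (y + (Bv n : ℝ) / 1000000) * X
        ≤ (y + (Bv n : ℝ) / 1000000) * ((DD n : ℝ) / 1000000 - y ^ 2 / 5) := by
      apply mul_le_mul_of_nonneg_left (by rw [hX]; linarith)
      have : (0 : ℝ) ≤ (Bv n : ℝ) / 1000000 := by positivity
      linarith
    have e4 : (y + (Bv n : ℝ) / 1000000) * (y ^ 2 / 5 - (DD n : ℝ) / 1000000)
        = - ((y + (Bv n : ℝ) / 1000000) * ((DD n : ℝ) / 1000000 - y ^ 2 / 5)) := by ring
    rw [e4] at hphi
    have h5 : 4 * (1 / 500) * sumPos (bL.take n) y ≤ 4 * CC ρ t := by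
      have : 4 * (1 / 500) * sumPos (bL.take n) y = 4 * ((1 / 500) * sumPos (bL.take n) y) := by ring
      rw [this]
      linarith
    linarith

/-- The margin `π - 3.141592`. -/
def dl : ℝ := π - 3141592 / 1000000

lemma dl_pos : 0 < dl := by
  unfold dl
  have := Real.pi_gt_d6
  norm_num at this ⊢
  linarith

/-- **The strengthened one-dimensional inequality.** -/
theorem oneD2 (hanti : AntitoneOn ρ (Icc 0 1)) (hlow : ∀ t ∈ Icc (0 : ℝ) 1, rho0 t ≤ ρ t)
    (hcont : ContinuousOn ρ (Ioo 0 1)) :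
    (∫ t in (0 : ℝ)..1, vv ρ t * psi t) - 1 / 5 * (∫ t in (0 : ℝ)..1, vv ρ t ^ 2)
        + dl * ((∫ t in (0 : ℝ)..1, ρ t) - π / 4)
      ≤ 2 * ((∫ t in (0 : ℝ)..1, ρ t) ^ 2 - (π / 4) ^ 2) := by
  have hint01 : IntervalIntegrable (eps ρ) volume 0 1 := eps_int hanti le_rfl zero_le_one le_rfl
  have hCcont : ContinuousOn (CC ρ) (uIcc 0 1) := by
    have h := intervalIntegral.continuousOn_primitive_interval (μ := volume) (f := eps ρ) (a := 0) (b := 1)
      (by rw [uIcc_of_le zero_le_one]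
          exact (intervalIntegrable_iff_integrableOn_Icc_of_le zero_le_one).mp hint01)
    exact h
  have hR : IntervalIntegrable (fun t => eps ρ t * CC ρ t) volume 0 1 :=
    hint01.mul_continuousOn hCcont
  have hR2 : IntervalIntegrable (fun t => (3141592 / 1000000 : ℝ) * eps ρ t + 4 * (eps ρ t * CC ρ t)) volume 0 1 :=
    (hint01.const_mul _).add (hR.const_mul 4)
  have hL1 := vv_psi_int hanti hlow
  have hL2 := (vv_sq_int hanti hlow).const_mul (1 / 5 : ℝ)
  have hL : IntervalIntegrable (fun t => vv ρ t * psi t - 1 / 5 * vv ρ t ^ 2) volume 0 1 :=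
    hL1.sub hL2
  have hmono : ∫ t in (0 : ℝ)..1, (vv ρ t * psi t - 1 / 5 * vv ρ t ^ 2)
      ≤ ∫ t in (0 : ℝ)..1, ((3141592 / 1000000 : ℝ) * eps ρ t + 4 * (eps ρ t * CC ρ t)) := by
    apply intervalIntegral.integral_mono_on zero_le_one hL hR2
    intro t ht
    have hp := pointwise2 hanti hlow ht
    have hε := eps_nonneg hlow ht
    have hsq := rho0_sq ht
    have e : vv ρ t * psi t - 1 / 5 * vv ρ t ^ 2
        = eps ρ t * ((ρ t + rho0 t) * (c0 - 1 / 5 + t ^ 2 - ρ t ^ 2 / 5)) := by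
      have hv : vv ρ t = (ρ t - rho0 t) * (ρ t + rho0 t) := by
        unfold vv
        rw [← hsq]
        ring
      have hX : psi t - 1 / 5 * vv ρ t = c0 - 1 / 5 + t ^ 2 - ρ t ^ 2 / 5 := by
        unfold vv psi
        ring
      calc vv ρ t * psi t - 1 / 5 * vv ρ t ^ 2 = vv ρ t * (psi t - 1 / 5 * vv ρ t) := by ring
        _ = _ := by rw [hX, hv]; unfold eps; ring
    rw [e]
    have := mul_le_mul_of_nonneg_left hp hε
    nlinarith [this]
  have e1 : ∫ t in (0 : ℝ)..1, (vv ρ t * psi t - 1 / 5 * vv ρ t ^ 2)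
      = (∫ t in (0 : ℝ)..1, vv ρ t * psi t) - 1 / 5 * (∫ t in (0 : ℝ)..1, vv ρ t ^ 2) := by
    rw [intervalIntegral.integral_sub hL1 hL2, intervalIntegral.integral_const_mul]
  have e2 : ∫ t in (0 : ℝ)..1, ((3141592 / 1000000 : ℝ) * eps ρ t + 4 * (eps ρ t * CC ρ t))
      = (3141592 / 1000000 : ℝ) * CC ρ 1 + 4 * (CC ρ 1 ^ 2 / 2) := by
    rw [intervalIntegral.integral_add (hint01.const_mul _) (hR.const_mul 4),
      intervalIntegral.integral_const_mul, intervalIntegral.integral_const_mul,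
      eps_mul_CC hanti hcont]
    rfl
  have e3 : CC ρ 1 = (∫ t in (0 : ℝ)..1, ρ t) - π / 4 := by
    unfold CC eps
    rw [intervalIntegral.integral_sub (rho_int hanti le_rfl zero_le_one le_rfl)
      (rho0_cont.intervalIntegrable 0 1), integral_rho0]
  rw [e1, e2, e3] at hmono
  unfold dl
  nlinarith [hmono]

end

end Vale.Agent.Lib.P237.PettyOneD
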