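import Vale.Agent.Lib.P237.PettyThmA
import Vale.Agent.Lib.P237.Eq.Strict

/-!
# The strengthened John averaging step
-/

open MeasureTheory Set Module
open scoped RealInnerProductSpace Real Pointwise

namespace Vale.Agent.Lib.P237.Petty

open Vale.Agent.Lib.P237

noncomputable section

variable (b : OrthonormalBasis (Fin 3) ℝ E3) {K : Set E3}

/-- **Strengthened John averaging**: in John position, if the section integral in each contact
direction is at most the value forced by the volume, then `|K \ B| = 0`. -/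
theorem pettyJC2 {ι : Type*} [Fintype ι] {K : Set E3} (hK : IsCompact K) (hKc : Convex ℝ K)
    (hsym : ∀ x ∈ K, -x ∈ K) (hB : Metric.closedBall (0 : E3) 1 ⊆ K)
    (y : ι → E3) (c : ι → ℝ) (hc : ∀ i, 0 < c i) (hy : ∀ i, ‖y i‖ = 1)
    (hJ : ∀ x : E3, ∑ i, c i * ⟪x, y i⟫ ^ 2 = ‖x‖ ^ 2)
    (hw : ∀ i, ∀ x ∈ K, ⟪x, y i⟫ ≤ 1)
    (b : ι → OrthonormalBasis (Fin 3) ℝ E3) (hb : ∀ i, b i 2 = y i)
    (hall : ∀ i, 4 * (∫ t in (0 : ℝ)..1, rr (b i) K t) ^ 2 ≤ PettyOneD.c0 * (volume K).toReal) :
    (volume (outer K)).toReal = 0 := by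
  have hπ : 0 < π := Real.pi_pos
  have hsum := sum_weights y c hy hJ
  have hne : Nonempty ι := by
    by_contra hemp
    rw [not_nonempty_iff] at hemp
    simp at hsum
  set Vol : ℝ := (volume (outer K)).toReal with hVol
  set Mom : ℝ := ∫ x in outer K, ‖x‖ ^ 2 with hMom
  set S : ι → ℝ := fun i => ∫ x in outer K, ⟪y i, x⟫ ^ 2 with hS
  have hcontN : Continuous fun x : E3 => ‖x‖ ^ 2 := by fun_prop
  have hcontS : ∀ i, Continuous fun x : E3 => ⟪y i, x⟫ ^ 2 := fun i =>
    (continuous_const.inner continuous_id).pow 2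
  have hfin := outer_finite hK
  have hconst : ∀ a : ℝ, IntegrableOn (fun _ : E3 => a) (outer K) := fun a =>
    integrableOn_const hfin (by simp)
  -- volume of `K`
  have hvolK : (volume K).toReal = Vol + 4 * π / 3 := by
    have h1 : volume (outer K) = volume K - volume (Metric.closedBall (0 : E3) 1) :=
      measure_sdiff hB Metric.isClosed_closedBall.measurableSet.nullMeasurableSet
        (isCompact_closedBall _ _).measure_lt_top.ne
    have h2 : (volume (Metric.closedBall (0 : E3) 1)).toReal = 4 * π / 3 := by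
      rw [EuclideanSpace.volume_closedBall_fin_three]
      rw [ENNReal.toReal_mul, ENNReal.toReal_pow, ENNReal.toReal_ofReal zero_le_one,
        ENNReal.toReal_ofReal (by positivity)]
      ring
    rw [hVol, h1, ENNReal.toReal_sub_of_le (measure_mono hB) hK.measure_lt_top.ne, h2]
    ring
  -- the weighted moment
  have hMoments : ∑ i, c i * S i = Mom := by
    simp only [hS, hMom, ← integral_const_mul]
    rw [← integral_finsetSum]
    · refine integral_congr_ae (Filter.Eventually.of_forall fun x => ?_)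
      simp only
      rw [← hJ x]
      exact Finset.sum_congr rfl fun i _ => by rw [real_inner_comm]
    · intro i _
      exact (integrableOn_outer hK (hcontS i)).const_mul _
  -- the excess of the profile integral
  set E : ι → ℝ := fun i => (∫ t in (0 : ℝ)..1, rhoB (b i) K t) - π / 4 with hE
  have hE0 : ∀ i, 0 ≤ E i := by
    intro i
    have h1 : IntervalIntegrable (rhoB (b i) K) volume 0 1 :=
      PettyOneD.rho_int (rhoB_anti (b i) hK hKc hsym) le_rfl zero_le_one le_rfl
    have h2 : ∫ t in (0 : ℝ)..1, PettyOneD.rho0 t ≤ ∫ t in (0 : ℝ)..1, rhoB (b i) K t :=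
      intervalIntegral.integral_mono_on zero_le_one (PettyOneD.rho0_cont.intervalIntegrable 0 1) h1
        (rhoB_low (b i) hK hB)
    rw [PettyOneD.integral_rho0] at h2
    simp only [hE]
    linarith
  -- the inequality in each direction
  have hdir : ∀ i, PettyOneD.c0 * Vol + 6 / 5 * S i - 2 / 5 * Mom + π ^ 3 / 4
      + 2 * π * (PettyOneD.dl * E i) ≤ 4 * (∫ t in (0 : ℝ)..1, rr (b i) K t) ^ 2 := by
    intro i
    have hwi : ∀ x ∈ K, ⟪x, b i 2⟫ ≤ 1 := by
      rw [hb i]; exact hw i
    have h4 := outer_psi (b i) hK hKc hsym hB hwi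
    have h5 := outer_moment (b i) hK hKc hsym hB hwi
    have h1 := PettyOneD.oneD2 (rhoB_anti (b i) hK hKc hsym) (rhoB_low (b i) hK hB)
      (rhoB_cont (b i) hK hKc hB)
    rw [hb i] at h4
    -- the left side of `h4`
    have h6 : ∫ x in outer K, (PettyOneD.c0 - 2 / 5 + 6 / 5 * ⟪y i, x⟫ ^ 2)
        = (PettyOneD.c0 - 2 / 5) * Vol + 6 / 5 * S i := by
      rw [integral_add (hconst _) ((integrableOn_outer hK (hcontS i)).const_mul _),
        setIntegral_const, integral_const_mul]
      simp only [hS, Measure.real, smul_eq_mul, hVol]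
      ring
    have h7 : ∫ x in outer K, (‖x‖ ^ 2 - 1) = Mom - Vol := by
      rw [integral_sub (integrableOn_outer hK hcontN) (hconst _), setIntegral_const]
      simp [Measure.real, hMom, hVol]
    rw [h6] at h4
    rw [h7] at h5
    -- the profile integral
    have h8 : ∫ t in (0 : ℝ)..1, rhoB (b i) K t = (∫ t in (0 : ℝ)..1, rr (b i) K t) / √π := by
      simp only [rhoB, intervalIntegral.integral_div]
    have hEi : (∫ t in (0 : ℝ)..1, rhoB (b i) K t) - π / 4 = E i := rfl
    rw [hEi, h8, div_pow, Real.sq_sqrt hπ.le] at h1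
    set J := ∫ t in (0 : ℝ)..1, rr (b i) K t with hJdef
    set L := ∫ t in (0 : ℝ)..1, PettyOneD.vv (rhoB (b i) K) t * PettyOneD.psi t with hL
    set M := ∫ t in (0 : ℝ)..1, PettyOneD.vv (rhoB (b i) K) t ^ 2 with hM
    -- multiply `h1` by `2 π`
    have h9 : 2 * π * (L - 1 / 5 * M + PettyOneD.dl * E i)
        ≤ 2 * π * (2 * (J ^ 2 / π - (π / 4) ^ 2)) :=
      mul_le_mul_of_nonneg_left h1 (by positivity)
    have h10 : 2 * π * (2 * (J ^ 2 / π - (π / 4) ^ 2)) = 4 * J ^ 2 - π ^ 3 / 4 := by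
      field_simp
      ring
    rw [h10] at h9
    have h11 : 2 * π * (L - 1 / 5 * M + PettyOneD.dl * E i)
        = 2 * π * L - 2 / 5 * (π * M) + 2 * π * (PettyOneD.dl * E i) := by ring
    rw [h11, ← h4] at h9
    nlinarith
  -- average over the directions
  have hc0 : PettyOneD.c0 * (4 * π / 3) = π ^ 3 / 4 := by
    unfold PettyOneD.c0
    field_simp
    ring
  have hvalue : PettyOneD.c0 * (volume K).toReal = PettyOneD.c0 * Vol + π ^ 3 / 4 := by
    rw [hvolK, mul_add, hc0]
  have hc3 : ∀ i, 0 < c i / 3 := fun i => by have := hc i; positivity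
  have hdl := PettyOneD.dl_pos
  have hle : ∑ i, (c i / 3) * (PettyOneD.c0 * Vol + 6 / 5 * S i - 2 / 5 * Mom + π ^ 3 / 4
      + 2 * π * (PettyOneD.dl * E i)) ≤ ∑ i, (c i / 3) * (PettyOneD.c0 * (volume K).toReal) := by
    apply Finset.sum_le_sum
    intro i _
    exact mul_le_mul_of_nonneg_left ((hdir i).trans (hall i)) (hc3 i).le
  have hleft : ∑ i, (c i / 3) * (PettyOneD.c0 * Vol + 6 / 5 * S i - 2 / 5 * Mom + π ^ 3 / 4
      + 2 * π * (PettyOneD.dl * E i)) = PettyOneD.c0 * Vol + π ^ 3 / 4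
        + 2 * π * PettyOneD.dl * ∑ i, (c i / 3) * E i := by
    have e : ∀ i, (c i / 3) * (PettyOneD.c0 * Vol + 6 / 5 * S i - 2 / 5 * Mom + π ^ 3 / 4
        + 2 * π * (PettyOneD.dl * E i))
        = c i * ((PettyOneD.c0 * Vol - 2 / 5 * Mom + π ^ 3 / 4) / 3) + 2 / 5 * (c i * S i)
          + 2 * π * PettyOneD.dl * ((c i / 3) * E i) := by
      intro i
      ring
    simp only [e]
    rw [Finset.sum_add_distrib, Finset.sum_add_distrib, ← Finset.sum_mul, ← Finset.mul_sum,
      ← Finset.mul_sum, hsum, hMoments]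
    ring
  have hright : ∑ i, (c i / 3) * (PettyOneD.c0 * (volume K).toReal)
      = PettyOneD.c0 * (volume K).toReal := by
    rw [← Finset.sum_mul, ← Finset.sum_div, hsum]
    ring
  rw [hleft, hright, hvalue] at hle
  have hsumE : ∑ i, (c i / 3) * E i ≤ 0 := by
    have hp : 0 < 2 * π * PettyOneD.dl := by positivity
    by_contra hcon
    push Not at hcon
    have := mul_pos hp hcon
    linarith
  have hsum0 : ∑ i, (c i / 3) * E i = 0 :=
    le_antisymm hsumE (Finset.sum_nonneg fun i _ => mul_nonneg (hc3 i).le (hE0 i))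
  have hEz : ∀ i, E i = 0 := by
    intro i
    have h := (Finset.sum_eq_zero_iff_of_nonneg (fun i _ => mul_nonneg (hc3 i).le (hE0 i))).mp hsum0 i
      (Finset.mem_univ i)
    exact (mul_eq_zero.mp h).resolve_left (hc3 i).ne'
  -- then the profile integral is the value of the ball
  have hJval : ∀ i, 4 * (∫ t in (0 : ℝ)..1, rr (b i) K t) ^ 2 = π ^ 3 / 4 := by
    intro i
    have h8 : ∫ t in (0 : ℝ)..1, rhoB (b i) K t = (∫ t in (0 : ℝ)..1, rr (b i) K t) / √π := by
      simp only [rhoB, intervalIntegral.integral_div]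
    have h1 := hEz i
    simp only [hE] at h1
    rw [h8] at h1
    have hs : 0 < √π := Real.sqrt_pos.mpr hπ
    have h2 : ∫ t in (0 : ℝ)..1, rr (b i) K t = π / 4 * √π := by
      field_simp at h1
      field_simp
      linarith
    rw [h2, mul_pow, Real.sq_sqrt hπ.le]
    ring
  have hle2 : ∑ i, (c i / 3) * (PettyOneD.c0 * Vol + 6 / 5 * S i - 2 / 5 * Mom + π ^ 3 / 4)
      ≤ ∑ i, (c i / 3) * (π ^ 3 / 4) := by
    apply Finset.sum_le_sum
    intro i _
    apply mul_le_mul_of_nonneg_left _ (hc3 i).le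
    have := hdir i
    rw [hJval i, hEz i] at this
    simpa using this
  have hleft2 : ∑ i, (c i / 3) * (PettyOneD.c0 * Vol + 6 / 5 * S i - 2 / 5 * Mom + π ^ 3 / 4)
      = PettyOneD.c0 * Vol + π ^ 3 / 4 := by
    have e : ∀ i, (c i / 3) * (PettyOneD.c0 * Vol + 6 / 5 * S i - 2 / 5 * Mom + π ^ 3 / 4)
        = c i * ((PettyOneD.c0 * Vol - 2 / 5 * Mom + π ^ 3 / 4) / 3) + 2 / 5 * (c i * S i) := by
      intro i
      ring
    simp only [e]
    rw [Finset.sum_add_distrib, ← Finset.sum_mul, ← Finset.mul_sum, hsum, hMoments]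
    ring
  have hright2 : ∑ i, (c i / 3) * (π ^ 3 / 4) = π ^ 3 / 4 := by
    rw [← Finset.sum_mul, ← Finset.sum_div, hsum]
    ring
  rw [hleft2, hright2] at hle2
  have hc0pos : 0 < PettyOneD.c0 := by
    unfold PettyOneD.c0
    positivity
  have hV0 : Vol ≤ 0 := by
    by_contra hcon
    push Not at hcon
    have := mul_pos hc0pos hcon
    linarith
  exact le_antisymm hV0 ENNReal.toReal_nonneg

/-- **Fixed point form with gain.** If `Π² K` lies in `c K` for a symmetric convex body `K` in John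
position and `c ≤ (3 π² / 4) |K|`, then `|K \ B| = 0`. -/
theorem fixed_point2 {ι : Type*} [Fintype ι] {K L M : Set E3} {c₀ : ℝ} (hK : IsCompact K)
    (hKc : Convex ℝ K) (hsym : ∀ x ∈ K, -x ∈ K) (hB : Metric.closedBall (0 : E3) 1 ⊆ K)
    (hL : IsProjBody K L) (hM : IsProjBody L M) (hc₀ : 0 ≤ c₀) (hfix : M ⊆ c₀ • K)
    (hle : c₀ ≤ 3 * π ^ 2 / 4 * (volume K).toReal)
    (y : ι → E3) (c : ι → ℝ) (hc : ∀ i, 0 < c i) (hy : ∀ i, ‖y i‖ = 1)
    (hJ : ∀ x : E3, ∑ i, c i * ⟪x, y i⟫ ^ 2 = ‖x‖ ^ 2)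
    (hw : ∀ i, ∀ x ∈ K, ⟪x, y i⟫ ≤ 1) :
    (volume (outer K)).toReal = 0 := by
  choose b hb using fun i => exists_basis (hy i)
  refine pettyJC2 hK hKc hsym hB y c hc hy hJ hw b hb fun i => ?_
  have h1 := slice hK hKc hsym hB hL (b i)
  rw [hb i] at h1
  have h2 : projArea L (y i) ≤ c₀ := by
    rw [← hM.support _ (hy i)]
    unfold supp
    apply csSup_le (hM.nonempty.image _)
    rintro _ ⟨m, hm, rfl⟩
    obtain ⟨k, hk, rfl⟩ := hfix hm
    simp only [inner_smul_left, RCLike.conj_to_real]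
    have := hw i k hk
    nlinarith
  unfold PettyOneD.c0
  nlinarith

/-- A convex body in John position with `|K \ B| = 0` is the unit ball. -/
theorem eq_ball_of_outer_null {K : Set E3} (hKc : Convex ℝ K) (hK : IsCompact K)
    (hB : Metric.closedBall (0 : E3) 1 ⊆ K) (h0 : (volume (outer K)).toReal = 0) :
    K = Metric.closedBall (0 : E3) 1 := by
  apply Subset.antisymm _ hB
  intro x hx
  by_contra hxB
  have hx1 : 1 < ‖x‖ := by
    rw [mem_closedBall_zero_iff] at hxB
    exact not_le.mp hxB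
  have hn : 0 < ‖x‖ := by linarith
  -- a small ball around a point beyond the unit sphere lies in `K`
  set s : ℝ := (1 + ‖x‖) / (2 * ‖x‖) with hs
  have hs1 : s < 1 := by
    rw [hs, div_lt_one (by positivity)]
    linarith
  have hs0 : 0 < s := by positivity
  set z : E3 := s • x with hz
  have hzn : ‖z‖ = (1 + ‖x‖) / 2 := by
    rw [hz, norm_smul, Real.norm_of_nonneg hs0.le, hs]
    field_simp
  set r : ℝ := min ((‖x‖ - 1) / 2) ((1 - s) * 1) with hr
  have hrpos : 0 < r := lt_min (by linarith) (by nlinarith)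
  have hsub : Metric.ball z r ⊆ outer K := by
    intro w hw
    rw [Metric.mem_ball, dist_eq_norm] at hw
    constructor
    · -- w = s x + (1 - s) p with p in the unit ball
      set p : E3 := (1 - s)⁻¹ • (w - z) with hp
      have hs1' : 0 < 1 - s := by linarith
      have hpB : p ∈ Metric.closedBall (0 : E3) 1 := by
        rw [mem_closedBall_zero_iff, hp, norm_smul, Real.norm_of_nonneg (inv_pos.mpr hs1').le]
        have h1 : ‖w - z‖ ≤ (1 - s) := hw.le.trans ((min_le_right _ _).trans (by linarith))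
        calc (1 - s)⁻¹ * ‖w - z‖ ≤ (1 - s)⁻¹ * (1 - s) := by gcongr
          _ = 1 := by field_simp
      have := hKc hx (hB hpB) hs0.le hs1'.le (by ring)
      have e : s • x + (1 - s) • p = w := by
        rw [hp, smul_smul, mul_inv_cancel₀ hs1'.ne', one_smul, hz]
        abel
      rwa [e] at this
    · rw [mem_closedBall_zero_iff]
      intro hle
      have h2 : ‖z‖ - ‖w - z‖ ≤ ‖w‖ := by
        have := norm_sub_norm_le z (z - w)
        have e : z - (z - w) = w := by abel
        rw [e, norm_sub_rev z w] at this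
        exact this
      have h3 : ‖w - z‖ < (‖x‖ - 1) / 2 := hw.trans_le (min_le_left _ _)
      rw [hzn] at h2
      linarith
  have hpos : 0 < volume (outer K) :=
    lt_of_lt_of_le (Metric.measure_ball_pos volume z hrpos) (measure_mono hsub)
  have h1 := ENNReal.toReal_pos hpos.ne' (outer_finite hK)
  linarith

end

end Vale.Agent.Lib.P237.Petty
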