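import Vale.Agent.Lib.P237.Eq.Tangent

open MeasureTheory Set Module Filter Topology
open scoped RealInnerProductSpace Pointwise ENNReal Real

namespace Vale.Agent.Lib.P237.Petty.Eq

open Vale.Agent.Lib.P237 Vale.Agent.Lib.P227 Vale.Agent.Lib.P237.Petty.AllK

noncomputable section

variable (T : E3 ≃ₗ[ℝ] E3)

/-- The absolute value of the determinant of `T`. -/
def dT : ℝ := |LinearMap.det (T : E3 →ₗ[ℝ] E3)|

lemma det_ne : LinearMap.det (T : E3 →ₗ[ℝ] E3) ≠ 0 := (LinearEquiv.isUnit_det' T).ne_zero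

lemma dT_pos : 0 < dT T := abs_pos.mpr (det_ne T)

lemma volume_image (X : Set E3) : volume (T '' X) = ENNReal.ofReal (dT T) * volume X :=
  Measure.addHaar_image_linearMap volume (T : E3 →ₗ[ℝ] E3) X

lemma volume_image_real (X : Set E3) : (volume (T '' X)).toReal = dT T * (volume X).toReal := by
  rw [volume_image, ENNReal.toReal_mul, ENNReal.toReal_ofReal (dT_pos T).le]

lemma T_cont : Continuous T := (T : E3 →ₗ[ℝ] E3).continuous_of_finiteDimensional

lemma image_compact {C : Set E3} (hc : IsCompact C) : IsCompact (T '' C) := hc.image (T_cont T)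

lemma image_convex {C : Set E3} (hv : Convex ℝ C) : Convex ℝ (T '' C) :=
  hv.linear_image (T : E3 →ₗ[ℝ] E3)

lemma sweep_image (C : Set E3) (g : E3) : sweep (T '' C) (T g) = T '' sweep C g := by
  ext x
  constructor
  · rintro ⟨_, ⟨y, hy, rfl⟩, r, hr, rfl⟩
    exact ⟨y + r • g, ⟨y, hy, r, hr, rfl⟩, by simp⟩
  · rintro ⟨_, ⟨y, hy, r, hr, rfl⟩, rfl⟩
    exact ⟨T y, ⟨y, hy, rfl⟩, r, hr, by simp⟩

/-- Covariance of the support function of the projection body. -/
lemma HH_image {C : Set E3} (hc : IsCompact C) (hv : Convex ℝ C) (g : E3) :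
    HH (T '' C) (T g) = dT T * HH C g := by
  have h1 := volume_sweep_HH (image_compact T hc) (image_convex T hv) (T g)
  have h2 := volume_sweep_HH hc hv g
  rw [sweep_image, volume_image_real, volume_image_real, h2] at h1
  linarith

lemma mem_projBodyOf_iff (C : Set E3) (x : E3) :
    x ∈ projBodyOf C ↔ ∀ v : E3, ⟪x, v⟫ ≤ HH C v := by
  constructor
  · intro hx v
    by_cases hv : v = 0
    · subst hv
      simp [HH_zero]
    have hu := hx _ (unit_of_ne hv)
    have hn : 0 < ‖v‖ := norm_pos_iff.mpr hv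
    unfold HH
    have e : ⟪x, v⟫ = ‖v‖ * ⟪x, ‖v‖⁻¹ • v⟫ := by
      rw [inner_smul_right, ← mul_assoc, mul_inv_cancel₀ hn.ne', one_mul]
    rw [e]
    gcongr
  · intro hx u hu
    have := hx u
    unfold HH at this
    rw [hu] at this
    simpa using this

/-- The linear map `S` with `Π (T K) = S⁻¹ Π K`. -/
def SS : E3 →ₗ[ℝ] E3 := (dT T)⁻¹ • LinearMap.adjoint (T : E3 →ₗ[ℝ] E3)

lemma projBodyOf_image {C : Set E3} (hc : IsCompact C) (hv : Convex ℝ C) :
    projBodyOf (T '' C) = SS T ⁻¹' projBodyOf C := by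
  have hd := dT_pos T
  ext x
  rw [mem_projBodyOf_iff, mem_preimage, mem_projBodyOf_iff]
  constructor
  · intro h w
    have h1 := h (T w)
    rw [HH_image T hc hv] at h1
    have e : ⟪SS T x, w⟫ = (dT T)⁻¹ * ⟪x, T w⟫ := by
      simp only [SS, LinearMap.smul_apply, real_inner_smul_left]
      rw [LinearMap.adjoint_inner_left]
      rfl
    rw [e, inv_mul_le_iff₀ hd]
    exact h1
  · intro h v
    obtain ⟨w, rfl⟩ := T.surjective v
    have h1 := h w
    rw [HH_image T hc hv]
    have e : ⟪SS T x, w⟫ = (dT T)⁻¹ * ⟪x, T w⟫ := by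
      simp only [SS, LinearMap.smul_apply, real_inner_smul_left]
      rw [LinearMap.adjoint_inner_left]
      rfl
    rw [e, inv_mul_le_iff₀ hd] at h1
    exact h1

lemma det_adjoint : LinearMap.det (LinearMap.adjoint (T : E3 →ₗ[ℝ] E3))
    = LinearMap.det (T : E3 →ₗ[ℝ] E3) := by
  set b := EuclideanSpace.basisFun (Fin 3) ℝ with hb
  rw [← LinearMap.det_toMatrix b.toBasis, ← LinearMap.det_toMatrix b.toBasis (T : E3 →ₗ[ℝ] E3),
    LinearMap.toMatrix_adjoint b b, Matrix.det_conjTranspose]
  simp

lemma det_SS : LinearMap.det (SS T) = ((dT T)⁻¹) ^ 3 * LinearMap.det (T : E3 →ₗ[ℝ] E3) := by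
  unfold SS
  rw [LinearMap.det_smul, det_adjoint, finrank_euclideanSpace_fin]

/-- The volume of the projection body of a linear image. -/
lemma volume_projBodyOf_image {C : Set E3} (hc : IsCompact C) (hv : Convex ℝ C) :
    (volume (projBodyOf (T '' C))).toReal = dT T ^ 2 * (volume (projBodyOf C)).toReal := by
  have hd := dT_pos T
  have hdet : LinearMap.det (SS T) ≠ 0 := by
    rw [det_SS]
    exact mul_ne_zero (by positivity) (det_ne T)
  rw [projBodyOf_image T hc hv, Measure.addHaar_preimage_linearMap _ hdet, ENNReal.toReal_mul,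
    ENNReal.toReal_ofReal (abs_nonneg _), det_SS]
  congr 1
  rw [abs_inv, abs_mul, abs_of_pos (by positivity : 0 < ((dT T)⁻¹) ^ 3)]
  show ((dT T)⁻¹ ^ 3 * dT T)⁻¹ = _
  field_simp

/-- `R(T K) = R(K)`. -/
lemma extremal_image {C : Set E3} (hc : IsCompact C) (hv : Convex ℝ C) {r : ℝ}
    (h : (volume (projBodyOf C)).toReal = r * (volume C).toReal ^ 2) :
    (volume (projBodyOf (T '' C))).toReal = r * (volume (T '' C)).toReal ^ 2 := by
  rw [volume_projBodyOf_image T hc hv, h, volume_image_real]
  ring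

/-- The projected area of the unit ball is `π`. -/
lemma projArea_ball {u : E3} (hu : ‖u‖ = 1) : projArea (Metric.closedBall (0 : E3) 1) u = π := by
  have h1 := projArea_lower (isCompact_closedBall (0 : E3) 1) (r := 1) subset_rfl hu
  have h2 := projArea_upper (isCompact_closedBall (0 : E3) 1) (R := 1) subset_rfl hu
  have h3 : disk 1 = π := by
    unfold disk
    rw [EuclideanSpace.volume_closedBall_fin_two]
    rw [ENNReal.toReal_mul, ENNReal.toReal_pow, ENNReal.toReal_ofReal zero_le_one,
      ENNReal.toReal_ofReal Real.pi_pos.le]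
    ring
  rw [h3] at h1 h2
  exact le_antisymm h2 h1

lemma projBodyOf_ball : projBodyOf (Metric.closedBall (0 : E3) 1) = Metric.closedBall (0 : E3) π := by
  ext x
  rw [mem_closedBall_zero_iff]
  constructor
  · intro hx
    by_cases hx0 : x = 0
    · subst hx0
      simpa using Real.pi_pos.le
    have h := hx _ (unit_of_ne hx0)
    rw [projArea_ball (unit_of_ne hx0), inner_smul_right, real_inner_self_eq_norm_sq] at h
    have hn : 0 < ‖x‖ := norm_pos_iff.mpr hx0
    have e : ‖x‖⁻¹ * ‖x‖ ^ 2 = ‖x‖ := by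
      field_simp
    rwa [e] at h
  · intro hx u hu
    rw [projArea_ball hu]
    calc ⟪x, u⟫ ≤ ‖x‖ * ‖u‖ := real_inner_le_norm _ _
      _ = ‖x‖ := by rw [hu, mul_one]
      _ ≤ π := hx

/-- The unit ball attains equality. -/
lemma extremal_ball : (volume (projBodyOf (Metric.closedBall (0 : E3) 1))).toReal
    = 3 * π ^ 2 / 4 * (volume (Metric.closedBall (0 : E3) 1)).toReal ^ 2 := by
  rw [projBodyOf_ball, EuclideanSpace.volume_closedBall_fin_three,
    EuclideanSpace.volume_closedBall_fin_three]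
  simp only [ENNReal.toReal_mul, ENNReal.toReal_pow]
  rw [ENNReal.toReal_ofReal Real.pi_pos.le, ENNReal.toReal_ofReal zero_le_one,
    ENNReal.toReal_ofReal (by positivity)]
  field_simp

/-- Ellipsoids attain equality. -/
theorem extremal_ellipsoid (a : E3) :
    (volume (projBodyOf ((fun x => x + a) '' (T '' Metric.closedBall (0 : E3) 1)))).toReal
      = 3 * π ^ 2 / 4 * (volume ((fun x => x + a) '' (T '' Metric.closedBall (0 : E3) 1))).toReal ^ 2 := by
  have hc := image_compact T (isCompact_closedBall (0 : E3) 1)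
  rw [projBodyOf_translate hc a, Set.image_add_right, measure_preimage_add_right]
  exact extremal_image T (isCompact_closedBall _ _) (convex_closedBall _ _) extremal_ball

end

end Vale.Agent.Lib.P237.Petty.Eq
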