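import Vale.Agent.Lib.P237.Eq.Linear
import Vale.Agent.Lib.P237.Eq.JC2
import Vale.Agent.Lib.P237.Eq.BMBary

open MeasureTheory Set Module Filter Topology
open scoped RealInnerProductSpace Pointwise ENNReal Real

namespace Vale.Agent.Lib.P237.Petty.Eq

open Vale.Agent.Lib.P237 Vale.Agent.Lib.P227 Vale.Agent.Lib.P237.Petty.AllK

noncomputable section

/-- The sharp constant. -/
abbrev Rm : ℝ := 3 * π ^ 2 / 4

lemma Rm_pos : 0 < Rm := by
  have := Real.pi_pos
  unfold Rm
  positivity

lemma projArea_neg {K : Set E3} (hK : IsCompact K) {u : E3} (hu : ‖u‖ = 1) :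
    projArea K (-u) = projArea K u := by
  obtain ⟨b, rfl⟩ := exists_basis hu
  have hn : ∀ i j, i ≠ j → ⟪b i, b j⟫ = 0 := fun i j hij => b.orthonormal.2 hij
  rw [projArea_eq hK (b.norm_eq_one 0) (b.norm_eq_one 1) (b.norm_eq_one 2)
    (hn 0 1 (by decide)) (hn 0 2 (by decide)) (hn 1 2 (by decide)),
    projArea_eq hK (b.norm_eq_one 0) (b.norm_eq_one 1) (by rw [norm_neg]; exact b.norm_eq_one 2)
    (hn 0 1 (by decide)) (by rw [inner_neg_right, hn 0 2 (by decide), neg_zero])
    (by rw [inner_neg_right, hn 1 2 (by decide), neg_zero])]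

lemma projBodyOf_sym {K : Set E3} (hK : IsCompact K) {x : E3} (hx : x ∈ projBodyOf K) :
    -x ∈ projBodyOf K := by
  intro u hu
  have h := hx (-u) (by rw [norm_neg]; exact hu)
  rw [projArea_neg hK hu, inner_neg_right] at h
  rw [inner_neg_left]
  exact h

lemma zonotope_bound {ι : Type} [Fintype ι] (a : ι → E3) :
    Rm * (volume (zonotope a)).toReal ^ 2 ≤ (volume (zonotope (projGen a))).toReal :=
  zonotope_sharp a

/-- Facts about `L = Π K` and `M = Π² K` for a body containing a ball. -/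
structure Tower (K : Set E3) (ρ : ℝ) : Prop where
  hK : IsCompact K
  hKc : Convex ℝ K
  hρ : 0 < ρ
  hB : Metric.closedBall (0 : E3) ρ ⊆ K

namespace Tower

variable {K : Set E3} {ρ : ℝ} (h : Tower K ρ)
include h

lemma disk1 : 0 < disk ρ := disk_pos h.hρ

lemma L_ball : Metric.closedBall (0 : E3) (disk ρ) ⊆ projBodyOf K :=
  ball_subset_projBodyOf h.hK h.hB

lemma L_proj : IsProjBody K (projBodyOf K) ∧ Rm * (volume K).toReal ^ 2 ≤ (volume (projBodyOf K)).toReal :=
  main_ball (c := Rm) (fun a => zonotope_bound a) h.hK h.hKc h.hρ h.hB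

lemma tower2 : Tower (projBodyOf K) (disk ρ) :=
  ⟨h.L_proj.1.compact, h.L_proj.1.convex, h.disk1, h.L_ball⟩

lemma M_proj : IsProjBody (projBodyOf K) (projBodyOf (projBodyOf K)) ∧
    Rm * (volume (projBodyOf K)).toReal ^ 2 ≤ (volume (projBodyOf (projBodyOf K))).toReal :=
  h.tower2.L_proj

lemma M_sym : SymBody (projBodyOf (projBodyOf K)) (disk (disk ρ)) :=
  ⟨disk_pos h.disk1, h.M_proj.1.compact, h.M_proj.1.convex,
    fun _ hx => projBodyOf_sym h.L_proj.1.compact hx, h.tower2.L_ball⟩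

lemma vol_pos : 0 < (volume K).toReal :=
  volume_pos_of_ball h.hρ h.hB h.hK

/-- The consequences of extremality: the volumes of `M` and the tangent inequality. -/
theorem core (hext : (volume (projBodyOf K)).toReal = Rm * (volume K).toReal ^ 2) :
    volume (projBodyOf (projBodyOf K)) = ENNReal.ofReal ((Rm * (volume K).toReal) ^ 3) * volume K ∧
    ∀ e : ℝ, 0 < e → volume (K + e • projBodyOf (projBodyOf K))
      ≤ ENNReal.ofReal ((1 + e * (Rm * (volume K).toReal)) ^ 3) * volume K := by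
  set V := (volume K).toReal with hV
  have hVpos : 0 < V := h.vol_pos
  have hR := Rm_pos
  set c := Rm * V with hc
  have hcpos : 0 < c := by positivity
  have hMc : IsCompact (projBodyOf (projBodyOf K)) := h.M_proj.1.compact
  constructor
  · have h1 := mink_general h.hK h.hKc h.hρ h.hB
    have h2 := h.M_proj.2
    rw [hext] at h1 h2
    have h3 : (volume (projBodyOf (projBodyOf K))).toReal = c ^ 3 * V := by
      apply le_antisymm
      · have : V ^ 2 * (volume (projBodyOf (projBodyOf K))).toReal ≤ V ^ 2 * (c ^ 3 * V) := by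
          calc _ ≤ (Rm * V ^ 2) ^ 3 := h1
            _ = _ := by rw [hc]; ring
        exact le_of_mul_le_mul_left this (by positivity)
      · calc c ^ 3 * V = Rm * (Rm * V ^ 2) ^ 2 := by rw [hc]; ring
          _ ≤ _ := h2
    rw [← ENNReal.ofReal_toReal hMc.measure_lt_top.ne, h3,
      ENNReal.ofReal_mul (by positivity), ENNReal.ofReal_toReal h.hK.measure_lt_top.ne]
  · intro e he
    obtain ⟨g₀, hg₀0, hg₀3⟩ := exists_cbrt hVpos.le
    have hg₀ : 0 < g₀ := by
      rcases hg₀0.eq_or_lt with h0 | h0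
      · rw [← h0] at hg₀3
        norm_num at hg₀3
        linarith
      · exact h0
    have htan := tangent_general h.hK h.hKc h.hρ h.hB hg₀ hg₀3.symm he.le
    have hval : g₀ + e * ((volume (projBodyOf K)).toReal / g₀ ^ 2) = g₀ * (1 + e * c) := by
      rw [hext, hc, ← hg₀3]
      field_simp
    rw [hval, mul_pow, hg₀3] at htan
    rw [← msum_eq_add]
    have hcomp := msum_compact h.hK hMc e
    rw [← ENNReal.ofReal_toReal hcomp.measure_lt_top.ne,
      ← ENNReal.ofReal_toReal h.hK.measure_lt_top.ne (a := volume K),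
      ← ENNReal.ofReal_mul (by positivity)]
    apply ENNReal.ofReal_le_ofReal
    calc _ ≤ V * (1 + e * c) ^ 3 := htan
      _ = _ := by ring

end Tower

/-- The linear equivalence given by an invertible matrix. -/
def actEquiv (M : M3) (hM : M.det ≠ 0) : E3 ≃ₗ[ℝ] E3 where
  toFun := act M
  invFun := act M⁻¹
  map_add' := act_add M
  map_smul' := fun c x => by simpa using act_smul M c x
  left_inv := fun x => by
    rw [← act_mul, Matrix.nonsing_inv_mul M (isUnit_iff_ne_zero.mpr hM), act_one]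
  right_inv := fun x => by
    rw [← act_mul, Matrix.mul_nonsing_inv M (isUnit_iff_ne_zero.mpr hM), act_one]

/-- A symmetric extremal body is an origin centred ellipsoid. -/
theorem sym_extremal {K : Set E3} {ρ : ℝ} (h : Tower K ρ) (hsym : ∀ x ∈ K, -x ∈ K)
    (hext : (volume (projBodyOf K)).toReal = Rm * (volume K).toReal ^ 2) :
    ∃ T : E3 ≃ₗ[ℝ] E3, K = T '' Metric.closedBall (0 : E3) 1 := by
  obtain ⟨M, hdet, hball, hmax⟩ := john_normalize h.hK h.hρ h.hB
  set T := actEquiv M hdet with hT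
  set A : Set E3 := act M⁻¹ '' K with hA
  have hAT : A = T.symm '' K := rfl
  have hAc : IsCompact A := by
    rw [hAT]
    exact image_compact T.symm h.hK
  have hAv : Convex ℝ A := by
    rw [hAT]
    exact image_convex T.symm h.hKc
  have hAs : ∀ x ∈ A, -x ∈ A := by
    rintro _ ⟨x, hx, rfl⟩
    exact ⟨-x, hsym x hx, act_neg _ _⟩
  have hdual := john_dual hAc hAv hball hmax
  have hAext : (volume (projBodyOf A)).toReal = Rm * (volume A).toReal ^ 2 := by
    rw [hAT]
    exact extremal_image T.symm h.hK h.hKc hext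
  have hTow : Tower A 1 := ⟨hAc, hAv, one_pos, hball⟩
  obtain ⟨h1, h2⟩ := hTow.core hAext
  have hVpos := hTow.vol_pos
  have hR := Rm_pos
  set c := Rm * (volume A).toReal with hc
  have hcpos : 0 < c := by positivity
  have hA1 : SymBody A 1 := ⟨one_pos, hAc, hAv, hAs, hball⟩
  have heq := eq_smul_of_volume_add_le hA1 hTow.M_sym hcpos (inv_pos.mpr hcpos) h1
    (h2 _ (inv_pos.mpr hcpos))
  -- John data
  set C : Set E3 := {y | ‖y‖ = 1 ∧ ∀ x ∈ A, ⟪x, y⟫ ≤ 1} with hC
  have hCc : IsCompact C := by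
    apply (isCompact_sphere (0 : E3) 1).of_isClosed_subset
    · have : C = {y : E3 | ‖y‖ = 1} ∩ ⋂ x ∈ A, {y : E3 | ⟪x, y⟫ ≤ 1} := by
        ext y
        simp [hC]
      rw [this]
      apply IsClosed.inter (isClosed_eq continuous_norm continuous_const)
      apply isClosed_biInter
      intro x _
      exact isClosed_le (by fun_prop) continuous_const
    · intro y hy
      simpa using hy.1
  obtain ⟨ι, hι, y, w, hy, hw, hdec⟩ := john_primal hCc (fun Q => by
    obtain ⟨y, h1, h2, h3⟩ := hdual Q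
    exact ⟨y, ⟨h1, h2⟩, h3⟩)
  have hout := fixed_point2 hAc hAv hAs hball hTow.L_proj.1 hTow.M_proj.1 hcpos.le heq.subset
    (le_of_eq rfl) y w hw (fun i => (hy i).1) hdec (fun i => (hy i).2)
  have hAball := eq_ball_of_outer_null hAv hAc hball hout
  refine ⟨T, ?_⟩
  rw [← hAball, hAT, image_image]
  simp

/-- Translates. -/
lemma translate_convex {K : Set E3} (hK : Convex ℝ K) (x₀ : E3) :
    Convex ℝ ((fun x => x + x₀) '' K) := by
  rintro _ ⟨x, hx, rfl⟩ _ ⟨y, hy, rfl⟩ a e ha he hae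
  refine ⟨a • x + e • y, hK hx hy ha he hae, ?_⟩
  have : a • (x + x₀) + e • (y + x₀) = a • x + e • y + (a + e) • x₀ := by
    rw [smul_add, smul_add, add_smul]
    abel
  simp only at this ⊢
  rw [this, hae, one_smul]

/-- **The equality case.** -/
theorem extremal_is_ellipsoid
    {K : Set E3} (hK : IsCompact K) (hKc : Convex ℝ K) (hi : (interior K).Nonempty)
    (hext : (volume (projBodyOf K)).toReal = Rm * (volume K).toReal ^ 2) :
    ∃ (a : E3) (T : E3 ≃ₗ[ℝ] E3), K = (fun x => a + T x) '' Metric.closedBall (0 : E3) 1 := by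
  obtain ⟨x₀, hx₀⟩ := hi
  obtain ⟨ρ, hρ, hball⟩ := Metric.nhds_basis_closedBall.mem_iff.mp (mem_interior_iff_mem_nhds.mp hx₀)
  set K₁ := (fun x => x + (-x₀)) '' K with hK₁
  have hK₁c : IsCompact K₁ := hK.image (by fun_prop)
  have hK₁v : Convex ℝ K₁ := translate_convex hKc _
  have hB₁ : Metric.closedBall (0 : E3) ρ ⊆ K₁ := by
    intro y hy
    refine ⟨y + x₀, hball ?_, by simp⟩
    rw [mem_closedBall_iff_norm, add_sub_cancel_right]
    simpa using hy
  have hV₁ : volume K₁ = volume K := by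
    rw [hK₁, Set.image_add_right, measure_preimage_add_right]
  have hext₁ : (volume (projBodyOf K₁)).toReal = Rm * (volume K₁).toReal ^ 2 := by
    rw [hK₁, projBodyOf_translate hK, ← hK₁, hV₁]
    exact hext
  have hTow : Tower K₁ ρ := ⟨hK₁c, hK₁v, hρ, hB₁⟩
  obtain ⟨h1, h2⟩ := hTow.core hext₁
  have hVpos := hTow.vol_pos
  have hR := Rm_pos
  set c := Rm * (volume K₁).toReal with hc
  have hcpos : 0 < c := by positivity
  obtain ⟨g', hg⟩ := eq_smul_general' hK₁c hK₁v hρ hB₁ hTow.M_sym hcpos (inv_pos.mpr hcpos) h1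
    (h2 _ (inv_pos.mpr hcpos))
  set g := -g' with hgd
  -- the translate `K₂` is symmetric
  set K₂ := (fun x => x + g) '' K₁ with hK₂
  have hK₂c : IsCompact K₂ := hK₁c.image (by fun_prop)
  have hK₂v : Convex ℝ K₂ := translate_convex hK₁v _
  have hM := hTow.M_sym
  have hmem : ∀ x, x ∈ K₂ ↔ c • x ∈ projBodyOf (projBodyOf K₁) := by
    intro x
    rw [hg]
    constructor
    · intro hx
      exact ⟨x, hx, rfl⟩
    · rintro ⟨z, hz, he⟩
      have : z = x := smul_right_injective E3 hcpos.ne' he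
      rwa [← this]
  have hK₂s : ∀ x ∈ K₂, -x ∈ K₂ := by
    intro x hx
    rw [hmem] at hx ⊢
    rw [smul_neg]
    exact hM.sym _ hx
  have hB₂ : Metric.closedBall (0 : E3) (c⁻¹ * disk (disk ρ)) ⊆ K₂ := by
    intro x hx
    rw [hmem]
    apply hM.ball
    rw [mem_closedBall_zero_iff] at hx ⊢
    rw [norm_smul, Real.norm_of_nonneg hcpos.le]
    calc c * ‖x‖ ≤ c * (c⁻¹ * disk (disk ρ)) := by gcongr
      _ = disk (disk ρ) := by field_simp
  have hV₂ : volume K₂ = volume K₁ := by
    rw [hK₂, Set.image_add_right, measure_preimage_add_right]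
  have hext₂ : (volume (projBodyOf K₂)).toReal = Rm * (volume K₂).toReal ^ 2 := by
    rw [hK₂, projBodyOf_translate hK₁c, ← hK₂, hV₂]
    exact hext₁
  have hTow₂ : Tower K₂ (c⁻¹ * disk (disk ρ)) :=
    ⟨hK₂c, hK₂v, mul_pos (inv_pos.mpr hcpos) (disk_pos (disk_pos hρ)), hB₂⟩
  obtain ⟨T, hT⟩ := sym_extremal hTow₂ hK₂s hext₂
  refine ⟨x₀ + -g, T, ?_⟩
  ext x
  constructor
  · intro hx
    have h3 : x + -x₀ + g ∈ K₂ := ⟨x + -x₀, ⟨x, hx, rfl⟩, rfl⟩
    rw [hT] at h3
    obtain ⟨z, hz, he⟩ := h3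
    refine ⟨z, hz, ?_⟩
    simp only
    rw [he]
    abel
  · rintro ⟨z, hz, rfl⟩
    have h3 : T z ∈ K₂ := by
      rw [hT]
      exact ⟨z, hz, rfl⟩
    obtain ⟨_, ⟨w, hw, rfl⟩, he⟩ := h3
    simp only at he
    have : x₀ + -g + T z = w := by
      rw [← he]
      abel
    simp only
    rw [this]
    exact hw

/-- **Petty's projection inequality in three dimensions with its equality case.** -/
theorem petty_three_equality {K : Set E3} (hK : IsCompact K) (hKc : Convex ℝ K)
    (hi : (interior K).Nonempty) :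
    ∃ L, Stmt.IsProjectionBody K L ∧ (∀ L', Stmt.IsProjectionBody K L' → L' = L) ∧
      3 * π ^ 2 / 4 * (volume K).toReal ^ 2 ≤ (volume L).toReal ∧
      ((volume L).toReal = 3 * π ^ 2 / 4 * (volume K).toReal ^ 2 ↔
        ∃ (a : E3) (T : E3 ≃ₗ[ℝ] E3), K = (fun x => a + T x) '' Metric.closedBall (0 : E3) 1) := by
  obtain ⟨h1, h2⟩ := AllK.all_of_zonotope (c := 3 * π ^ 2 / 4) (fun a => zonotope_sharp a) hK hKc hi
  refine ⟨AllK.projBodyOf K, ofIsProjBody hK h1, fun L' hL' => ?_, h2, ?_, ?_⟩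
  · exact isProjBody_unique (toIsProjBody hK hL') h1
  · exact fun hext => extremal_is_ellipsoid hK hKc hi hext
  · rintro ⟨a, T, rfl⟩
    have := extremal_ellipsoid T a
    have e : (fun x => x + a) '' (T '' Metric.closedBall (0 : E3) 1)
        = (fun x => a + T x) '' Metric.closedBall (0 : E3) 1 := by
      rw [image_image]
      apply image_congr
      intro x _
      exact add_comm _ _
    rwa [e] at this

end

end Vale.Agent.Lib.P237.Petty.Eq
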