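import Vale.Agent.Lib.P237.PettyEq1

open MeasureTheory Set Filter Topology
open scoped Interval

namespace Vale.Agent.Lib.P237.Petty

noncomputable section

/-- The one dimensional core of the Brunn-Minkowski equality case, with the conclusion that the two
profiles coincide. -/
theorem one_d_eq_strong {a₁ a₂ c : ℝ → ℝ} {h₁ h₂ I p q : ℝ} (hh₁ : 0 < h₁) (hh₂ : 0 < h₂)
    (hp : 0 < p) (hq : 0 < q) (hpq : p + q = 1)
    (ha₁c : ContinuousOn a₁ (Ioo 0 h₁)) (ha₂c : ContinuousOn a₂ (Ioo 0 h₂))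
    (ha₁p : ∀ s ∈ Ioo 0 h₁, 0 < a₁ s) (ha₂p : ∀ s ∈ Ioo 0 h₂, 0 < a₂ s)
    (ha₁i : IntervalIntegrable a₁ volume 0 h₁) (ha₂i : IntervalIntegrable a₂ volume 0 h₂)
    (hI₁ : ∫ s in 0..h₁, a₁ s = I) (hI₂ : ∫ s in 0..h₂, a₂ s = I)
    (hcc : ContinuousOn c (Ioo 0 (p * h₁ + q * h₂)))
    (hcn : ∀ s ∈ Ioo 0 (p * h₁ + q * h₂), 0 ≤ c s)
    (hci : IntervalIntegrable c volume 0 (p * h₁ + q * h₂))
    (hcI : ∫ s in 0..(p * h₁ + q * h₂), c s ≤ I)
    (hbm : ∀ s ∈ Ioo 0 h₁, ∀ t ∈ Ioo 0 h₂,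
      (p * Real.sqrt (a₁ s) + q * Real.sqrt (a₂ t)) ^ 2 ≤ c (p * s + q * t)) :
    h₁ = h₂ ∧ ∀ s ∈ Ioo 0 h₁, a₁ s = a₂ s := by
  obtain ⟨G₁, hG₁⟩ := exists_prim hh₁ ha₁c ha₁p ha₁i
  obtain ⟨G₂, hG₂⟩ := exists_prim hh₂ ha₂c ha₂p ha₂i
  rw [hI₁] at hG₁
  rw [hI₂] at hG₂
  have hIpos : 0 < I := hG₁.Ipos
  set h₃ := p * h₁ + q * h₂ with hh₃
  have hh₃pos : 0 < h₃ := by positivity
  set T : ℝ → ℝ := fun v => p * G₁ v + q * G₂ v with hT
  set T' : ℝ → ℝ := fun v => p * (a₁ (G₁ v))⁻¹ + q * (a₂ (G₂ v))⁻¹ with hT'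
  have hTm : ∀ v ∈ Ioo 0 I, T v ∈ Ioo 0 h₃ := by
    intro v hv
    have h1 := hG₁.maps v hv
    have h2 := hG₂.maps v hv
    constructor
    · have := h1.1
      have := h2.1
      positivity
    · have := mul_lt_mul_of_pos_left h1.2 hp
      have := mul_lt_mul_of_pos_left h2.2 hq
      simp only [hT, hh₃]
      linarith
  have hTd : ∀ v ∈ Ioo 0 I, HasDerivAt T (T' v) v := by
    intro v hv
    exact ((hG₁.deriv v hv).const_mul p).add ((hG₂.deriv v hv).const_mul q)
  have hinv₁ : ContinuousOn (fun v => (a₁ (G₁ v))⁻¹) (Ioo 0 I) :=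
    (ha₁c.comp hG₁.cont hG₁.maps).inv₀ (fun v hv => (ha₁p _ (hG₁.maps v hv)).ne')
  have hinv₂ : ContinuousOn (fun v => (a₂ (G₂ v))⁻¹) (Ioo 0 I) :=
    (ha₂c.comp hG₂.cont hG₂.maps).inv₀ (fun v hv => (ha₂p _ (hG₂.maps v hv)).ne')
  have hT'c : ContinuousOn T' (Ioo 0 I) := (hinv₁.const_smul p).add (hinv₂.const_smul q)
  have hTc : ContinuousOn T (Ioo 0 I) :=
    fun v hv => (hTd v hv).continuousAt.continuousWithinAt
  set D : ℝ → ℝ := fun v => c (T v) * T' v - 1 with hD
  have hDc : ContinuousOn D (Ioo 0 I) :=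
    ((hcc.comp hTc hTm).mul hT'c).sub continuousOn_const
  have hDn : ∀ v ∈ Ioo 0 I, 0 ≤ D v := by
    intro v hv
    have h1 := hG₁.maps v hv
    have h2 := hG₂.maps v hv
    have ha1 := ha₁p _ h1
    have ha2 := ha₂p _ h2
    have hb := hbm _ h1 _ h2
    have hx : 0 < Real.sqrt (a₁ (G₁ v)) := Real.sqrt_pos.mpr ha1
    have hy : 0 < Real.sqrt (a₂ (G₂ v)) := Real.sqrt_pos.mpr ha2
    have htr := transport_nonneg hx hy hp hq hpq
    rw [Real.sq_sqrt ha1.le, Real.sq_sqrt ha2.le] at htr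
    have hT'pos : 0 < T' v := by
      simp only [hT']
      positivity
    have := mul_le_mul_of_nonneg_right hb hT'pos.le
    simp only [hD]
    simp only [hT'] at this ⊢
    simp only [hT]
    linarith
  -- the integral of `D` over an inner interval
  have hDint : ∀ {u w : ℝ}, u ∈ Ioo 0 I → w ∈ Ioo 0 I → IntervalIntegrable D volume u w := by
    intro u w hu hw
    apply ContinuousOn.intervalIntegrable
    exact hDc.mono (by
      intro x hx
      rcases le_total u w with hle | hle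
      · rw [uIcc_of_le hle] at hx
        exact ⟨lt_of_lt_of_le hu.1 hx.1, lt_of_le_of_lt hx.2 hw.2⟩
      · rw [uIcc_of_ge hle] at hx
        exact ⟨lt_of_lt_of_le hw.1 hx.1, lt_of_le_of_lt hx.2 hu.2⟩)
  have hsub : ∀ {u w : ℝ}, u ∈ Ioo 0 I → w ∈ Ioo 0 I → u ≤ w → [[u, w]] ⊆ Ioo 0 I := by
    intro u w hu hw hle x hx
    rw [uIcc_of_le hle] at hx
    exact ⟨lt_of_lt_of_le hu.1 hx.1, lt_of_le_of_lt hx.2 hw.2⟩
  have hDle : ∀ u ∈ Ioo 0 I, ∀ w ∈ Ioo 0 I, u ≤ w → ∫ v in u..w, D v ≤ u + (I - w) := by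
    intro u hu w hw hle
    have hsb := hsub hu hw hle
    have hcv : ∫ v in u..w, (c ∘ T) v * T' v = ∫ s in T u..T w, c s :=
      intervalIntegral.integral_comp_mul_deriv' (fun x hx => hTd x (hsb hx)) (hT'c.mono hsb)
        (hcc.mono (by
          rintro _ ⟨x, hx, rfl⟩
          exact hTm x (hsb hx)))
    have hTu := hTm u hu
    have hTw := hTm w hw
    have hTle : T u ≤ T w := by
      have hG₁mono : G₁ u ≤ G₁ w := by
        have : ∀ x ∈ [[u, w]], 0 ≤ deriv G₁ x := fun x hx => by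
          rw [(hG₁.deriv x (hsb hx)).deriv]
          exact (inv_pos.mpr (ha₁p _ (hG₁.maps x (hsb hx)))).le
        rcases hle.eq_or_lt with rfl | hlt
        · exact le_rfl
        rw [uIcc_of_le hle] at this
        refine monotoneOn_of_deriv_nonneg (convex_Icc u w) ?_ ?_ ?_ ⟨le_rfl, hle⟩ ⟨hle, le_rfl⟩ hle
        · exact hG₁.cont.mono (by rw [← uIcc_of_le hle]; exact hsb)
        · intro x hx
          have hx' := interior_subset hx
          rw [← uIcc_of_le hle] at hx'
          exact (hG₁.deriv x (hsb hx')).differentiableAt.differentiableWithinAt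
        · intro x hx
          exact this x (interior_subset hx)
      have hG₂mono : G₂ u ≤ G₂ w := by
        have : ∀ x ∈ [[u, w]], 0 ≤ deriv G₂ x := fun x hx => by
          rw [(hG₂.deriv x (hsb hx)).deriv]
          exact (inv_pos.mpr (ha₂p _ (hG₂.maps x (hsb hx)))).le
        rcases hle.eq_or_lt with rfl | hlt
        · exact le_rfl
        rw [uIcc_of_le hle] at this
        refine monotoneOn_of_deriv_nonneg (convex_Icc u w) ?_ ?_ ?_ ⟨le_rfl, hle⟩ ⟨hle, le_rfl⟩ hle
        · exact hG₂.cont.mono (by rw [← uIcc_of_le hle]; exact hsb)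
        · intro x hx
          have hx' := interior_subset hx
          rw [← uIcc_of_le hle] at hx'
          exact (hG₂.deriv x (hsb hx')).differentiableAt.differentiableWithinAt
        · intro x hx
          exact this x (interior_subset hx)
      simp only [hT]
      have := mul_le_mul_of_nonneg_left hG₁mono hp.le
      have := mul_le_mul_of_nonneg_left hG₂mono hq.le
      linarith
    have hcle : ∫ s in T u..T w, c s ≤ ∫ s in 0..h₃, c s := by
      apply intervalIntegral.integral_mono_interval hTu.1.le hTle hTw.2.le _ hci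
      have : ∀ᵐ x ∂(volume.restrict (Ioc 0 h₃)), x ∈ Ioo 0 h₃ := by
        have : volume.restrict (Ioc 0 h₃) = volume.restrict (Ioo 0 h₃) :=
          Measure.restrict_congr_set Ioo_ae_eq_Ioc.symm
        rw [this]
        exact ae_restrict_mem measurableSet_Ioo
      filter_upwards [this] with x hx using hcn x hx
    have hint1 : IntervalIntegrable (fun v => (c ∘ T) v * T' v) volume u w := by
      apply ContinuousOn.intervalIntegrable
      exact ((hcc.comp hTc hTm).mul hT'c).mono hsb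
    have e : ∫ v in u..w, D v = (∫ v in u..w, (c ∘ T) v * T' v) - (w - u) := by
      simp only [hD, Function.comp]
      rw [intervalIntegral.integral_sub (by simpa [Function.comp] using hint1) intervalIntegrable_const]
      simp
    rw [e, hcv]
    linarith
  have hDzero : ∀ v ∈ Ioo 0 I, D v = 0 := by
    intro v hv
    by_contra hne
    have hpos : 0 < D v := lt_of_le_of_ne (hDn v hv) (Ne.symm hne)
    -- choose inner interval around v
    set u₀ := v / 2 with hu₀
    set w₀ := (v + I) / 2 with hw₀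
    have hu₀m : u₀ ∈ Ioo 0 I := ⟨by have := hv.1; positivity, by have := hv.1; have := hv.2; simp only [hu₀]; linarith⟩
    have hw₀m : w₀ ∈ Ioo 0 I := ⟨by have := hv.1; positivity, by have := hv.2; simp only [hw₀]; linarith⟩
    have hu₀v : u₀ < v := by have := hv.1; simp only [hu₀]; linarith
    have hvw₀ : v < w₀ := by have := hv.2; simp only [hw₀]; linarith
    have hsb := hsub hu₀m hw₀m (hu₀v.trans hvw₀).le
    have hkappa : 0 < ∫ x in u₀..w₀, D x := by
      rw [intervalIntegral.integral_pos_iff_support_of_nonneg_ae' (by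
        rw [uIoc_of_le (hu₀v.trans hvw₀).le]
        have : ∀ᵐ x ∂(volume.restrict (Ioc u₀ w₀)), x ∈ Ioc u₀ w₀ := ae_restrict_mem measurableSet_Ioc
        filter_upwards [this] with x hx
        exact hDn x ⟨lt_trans hu₀m.1 hx.1, lt_of_le_of_lt hx.2 hw₀m.2⟩) (hDint hu₀m hw₀m)]
      refine ⟨hu₀v.trans hvw₀, ?_⟩
      -- the support of D contains a neighbourhood of v
      have hcat : ContinuousAt D v := hDc.continuousAt (Ioo_mem_nhds hv.1 hv.2)
      have hnh : {x | 0 < D x} ∈ 𝓝 v := hcat.eventually (lt_mem_nhds hpos)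
      obtain ⟨l, r, hlr, hlrs⟩ := mem_nhds_iff_exists_Ioo_subset.mp hnh
      have hIoo : Ioo (max l u₀) (min r w₀) ⊆ Function.support D ∩ Ioc u₀ w₀ := by
        intro x hx
        have h1 := (max_lt_iff.mp hx.1)
        have h2 := (lt_min_iff.mp hx.2)
        refine ⟨?_, ⟨h1.2.trans_le le_rfl, h2.2.le⟩⟩
        have : 0 < D x := hlrs ⟨h1.1, h2.1⟩
        exact this.ne'
      refine lt_of_lt_of_le ?_ (measure_mono hIoo)
      rw [Real.volume_Ioo]
      simp only [ENNReal.ofReal_pos, sub_pos]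
      exact max_lt_iff.mpr ⟨lt_min_iff.mpr ⟨hlr.1.trans hlr.2, hlr.1.trans hvw₀⟩,
        lt_min_iff.mpr ⟨hu₀v.trans hlr.2, hu₀v.trans hvw₀⟩⟩
    set κ := ∫ x in u₀..w₀, D x with hκ
    set δ := min (min (u₀ / 2) ((I - w₀) / 2)) (κ / 4) with hδ
    have hδpos : 0 < δ := by
      have h1 := hu₀m.1
      have h2 := hw₀m.2
      apply lt_min (lt_min _ _) <;> linarith
    have hδ1 : δ ≤ u₀ / 2 := (min_le_left _ _).trans (min_le_left _ _)
    have hδ2 : δ ≤ (I - w₀) / 2 := (min_le_left _ _).trans (min_le_right _ _)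
    have hδ3 : δ ≤ κ / 4 := min_le_right _ _
    have hδu : δ ∈ Ioo 0 I := ⟨hδpos, by have := hu₀m.1; have := hu₀m.2; linarith⟩
    have hIδ : I - δ ∈ Ioo 0 I := ⟨by have := hw₀m.1; have := hw₀m.2; linarith, by linarith⟩
    have h1 := hDle δ hδu (I - δ) hIδ (by have := hu₀m.1; have := hw₀m.1; have := hw₀m.2; have := hu₀v.trans hvw₀; linarith)
    have hsplit : ∫ x in δ..(I - δ), D x
        = (∫ x in δ..u₀, D x) + κ + ∫ x in w₀..(I - δ), D x := by
      rw [hκ, intervalIntegral.integral_add_adjacent_intervals (hDint hδu hu₀m) (hDint hu₀m hw₀m),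
        intervalIntegral.integral_add_adjacent_intervals (hDint hδu hw₀m) (hDint hw₀m hIδ)]
    have hn1 : 0 ≤ ∫ x in δ..u₀, D x := by
      apply intervalIntegral.integral_nonneg (by have := hu₀m.1; linarith)
      intro x hx
      exact hDn x ⟨lt_of_lt_of_le hδpos hx.1, lt_of_le_of_lt hx.2 hu₀m.2⟩
    have hn2 : 0 ≤ ∫ x in w₀..(I - δ), D x := by
      apply intervalIntegral.integral_nonneg (by have := hw₀m.2; linarith)
      intro x hx
      exact hDn x ⟨lt_of_lt_of_le hw₀m.1 hx.1, lt_of_le_of_lt hx.2 hIδ.2⟩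
    have : κ ≤ 2 * δ := by
      have h2 : δ + (I - (I - δ)) = 2 * δ := by ring
      linarith
    linarith
  -- equality of the square roots
  have hsq : ∀ v ∈ Ioo 0 I, a₁ (G₁ v) = a₂ (G₂ v) := by
    intro v hv
    have h1 := hG₁.maps v hv
    have h2 := hG₂.maps v hv
    have ha1 := ha₁p _ h1
    have ha2 := ha₂p _ h2
    have hb := hbm _ h1 _ h2
    have hx : 0 < Real.sqrt (a₁ (G₁ v)) := Real.sqrt_pos.mpr ha1
    have hy : 0 < Real.sqrt (a₂ (G₂ v)) := Real.sqrt_pos.mpr ha2
    have hD0 := hDzero v hv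
    have hT'pos : 0 < T' v := by
      simp only [hT']
      positivity
    have := mul_le_mul_of_nonneg_right hb hT'pos.le
    have hle : (p * Real.sqrt (a₁ (G₁ v)) + q * Real.sqrt (a₂ (G₂ v))) ^ 2
        * (p * ((Real.sqrt (a₁ (G₁ v))) ^ 2)⁻¹ + q * ((Real.sqrt (a₂ (G₂ v))) ^ 2)⁻¹) ≤ 1 := by
      rw [Real.sq_sqrt ha1.le, Real.sq_sqrt ha2.le]
      simp only [hD, hT'] at hD0 this
      simp only [hT] at hD0
      linarith
    have := transport_eq hx hy hp hq hpq hle
    exact (Real.sqrt_inj ha1.le ha2.le).mp this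
  -- the difference of the inverses is constant
  have hconst : ∀ u ∈ Ioo 0 I, ∀ v ∈ Ioo 0 I, G₁ u - G₂ u = G₁ v - G₂ v := by
    intro u hu v hv
    have hd : ∀ x ∈ Ioo 0 I, HasDerivAt (fun x => G₁ x - G₂ x) 0 x := by
      intro x hx
      have := (hG₁.deriv x hx).sub (hG₂.deriv x hx)
      rw [hsq x hx, sub_self] at this
      exact this
    exact isOpen_Ioo.is_const_of_deriv_eq_zero isPreconnected_Ioo
      (fun x hx => (hd x hx).differentiableAt.differentiableWithinAt)
      (fun x hx => (hd x hx).deriv) hu hv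
  set v₀ := I / 2 with hv₀
  have hv₀m : v₀ ∈ Ioo 0 I := ⟨by positivity, by simp only [hv₀]; linarith⟩
  set k := G₁ v₀ - G₂ v₀ with hk
  have h1 : ∀ s ∈ Ioo 0 h₂, s + k ∈ Ioo 0 h₁ := by
    intro s hs
    obtain ⟨v, hv, rfl⟩ := hG₂.surj s hs
    have e := hconst v hv v₀ hv₀m
    have : G₂ v + k = G₁ v := by
      rw [← hk] at e
      linarith
    rw [this]
    exact hG₁.maps v hv
  have h2 : ∀ s ∈ Ioo 0 h₁, s - k ∈ Ioo 0 h₂ := by
    intro s hs
    obtain ⟨v, hv, rfl⟩ := hG₁.surj s hs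
    have e := hconst v hv v₀ hv₀m
    have : G₁ v - k = G₂ v := by
      rw [← hk] at e
      linarith
    rw [this]
    exact hG₂.maps v hv
  have hk0 : k = 0 := by
    apply le_antisymm
    · by_contra hcon
      push Not at hcon
      have := h2 (min k (h₁ / 2)) ⟨lt_min hcon (by positivity), (min_le_right _ _).trans_lt (by linarith)⟩
      have h3 := this.1
      have h4 := min_le_left k (h₁ / 2)
      linarith
    · by_contra hcon
      push Not at hcon
      have := h1 (min (-k) (h₂ / 2)) ⟨lt_min (by linarith) (by positivity), (min_le_right _ _).trans_lt (by linarith)⟩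
      have h3 := this.1
      have h4 := min_le_left (-k) (h₂ / 2)
      linarith
  have hEq : h₁ = h₂ := by
    apply le_antisymm
    · by_contra hcon
      push Not at hcon
      have := h2 ((h₁ + h₂) / 2) ⟨by positivity, by linarith⟩
      have h3 := this.2
      rw [hk0] at h3
      linarith
    · by_contra hcon
      push Not at hcon
      have := h1 ((h₁ + h₂) / 2) ⟨by positivity, by linarith⟩
      have h3 := this.2
      rw [hk0] at h3
      linarith
  refine ⟨hEq, fun s hs => ?_⟩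
  obtain ⟨v, hv, rfl⟩ := hG₁.surj s hs
  have e := hconst v hv v₀ hv₀m
  have e2 : G₁ v = G₂ v := by
    rw [← hk, hk0] at e
    linarith
  have h3 := hsq v hv
  rw [← e2] at h3
  exact h3

end

end Vale.Agent.Lib.P237.Petty
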