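import Vale.Agent.Lib.P237.PettyFinal

open MeasureTheory Set Module Filter Topology
open scoped RealInnerProductSpace Pointwise ENNReal

namespace Vale.Agent.Lib.P237.Petty.Eq

open Vale.Agent.Lib.P237 Vale.Agent.Lib.P227 Vale.Agent.Lib.P237.Petty.AllK

noncomputable section

variable {ι : Type*} [Fintype ι]

lemma msum_subset_zs (K : Set E3) (G : ι → E3) (s : ℝ) :
    msum K s (zonotope G) ⊆ zs K (fun i => s • G i) Finset.univ := by
  rintro _ ⟨x, hx, y, hy, rfl⟩
  exact zon_sub_zs K G hx hy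

lemma msum_mono {K M M' : Set E3} (h : M ⊆ M') (s : ℝ) : msum K s M ⊆ msum K s M' := by
  rintro _ ⟨x, hx, m, hm, rfl⟩
  exact ⟨x, hx, m, h hm, rfl⟩

/-- The tangent line for the cube root of the volume of `K + ε Z`, `Z` a zonotope. -/
theorem tangent_zon {K : Set E3} (hK : IsCompact K) (hKc : Convex ℝ K) {ρ : ℝ} (hρ : 0 < ρ)
    (hB : Metric.closedBall (0 : E3) ρ ⊆ K) (G : ι → E3) {g₀ : ℝ} (hg₀ : 0 < g₀)
    (hv : (volume K).toReal = g₀ ^ 3) {ε : ℝ} (hε : 0 ≤ ε) :
    (volume (msum K ε (zonotope G))).toReal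
      ≤ (g₀ + ε * (2 / 3 * (∑ i, HH K (G i)) / g₀ ^ 2)) ^ 3 := by
  classical
  have hS0 : 0 ≤ ∑ i, HH K (G i) := Finset.sum_nonneg fun i _ => HH_nonneg _ _
  set SS := ∑ i, HH K (G i) with hSS
  have hZc := zon_compact G
  rcases hε.eq_or_lt with rfl | hε0
  · have e : msum K 0 (zonotope G) = K := by
      ext x
      constructor
      · rintro ⟨y, hy, m, _, rfl⟩
        simpa using hy
      · intro hx
        exact ⟨x, hx, 0, zon_zero G, by simp⟩
    rw [e, hv]
    simp
  set Vε := (volume (msum K ε (zonotope G))).toReal with hVε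
  have hsubK : ∀ c : ℝ, K ⊆ msum K c (zonotope G) := by
    intro c x hx
    exact ⟨x, hx, 0, zon_zero G, by simp⟩
  have hVpos : 0 < (volume K).toReal := by rw [hv]; positivity
  have hVε0 : 0 < Vε :=
    lt_of_lt_of_le hVpos (ENNReal.toReal_mono (msum_compact hK hZc ε).measure_lt_top.ne
      (measure_mono (hsubK ε)))
  obtain ⟨gε, hgε0, hgε3⟩ := exists_cbrt hVε0.le
  have hgεpos : 0 < gε := by
    rcases hgε0.eq_or_lt with h | h
    · rw [← h] at hgε3
      norm_num at hgε3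
      linarith
    · exact h
  set F := 2 / 3 * SS / g₀ ^ 2 with hF
  have hF0 : 0 ≤ F := by positivity
  suffices hs : gε ≤ g₀ + ε * F by
    have := pow_le_pow_left₀ hgεpos.le hs 3
    rwa [hgε3] at this
  by_cases ht : gε ≤ g₀
  · have : 0 ≤ ε * F := by positivity
    linarith
  have ht' : 0 < gε - g₀ := by linarith [not_le.mp ht]
  set t := gε - g₀ with htd
  set D := (∑ i, ‖G i‖) / ρ with hD
  have hD0 : 0 ≤ D := div_nonneg (Finset.sum_nonneg fun i _ => norm_nonneg _) hρ.le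
  have key : ∀ δ ∈ Ioo 0 ε, 3 * g₀ ^ 2 * t / ε ≤ 2 * (1 + δ * D) ^ 2 * SS := by
    intro δ hδ
    have hδ0 : 0 < δ := hδ.1
    have hl0 : 0 < δ / ε := by positivity
    have hl1 : δ / ε < 1 := by
      rw [div_lt_one hε0]
      exact hδ.2
    have hbm := bm_cube (A := K) (C := msum K ε (zonotope G))
      (N := msum K δ (zonotope G)) hK (msum_compact hK hZc ε) (msum_compact hK hZc δ)
      hg₀ hgεpos hv hgε3.symm hl0 hl1 (by
        rintro x hx _ ⟨y, hy, m, hm, rfl⟩
        refine ⟨(1 - δ / ε) • x + (δ / ε) • y, hKc hx hy (by linarith) hl0.le (by ring), m, hm, ?_⟩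
        rw [smul_add, smul_smul, add_assoc]
        congr 3
        field_simp)
    have h1 : (1 - δ / ε) * g₀ + δ / ε * gε = g₀ + δ / ε * t := by
      rw [htd]; ring
    rw [h1] at hbm
    have h2 : g₀ ^ 3 + 3 * g₀ ^ 2 * (δ / ε * t) ≤ (g₀ + δ / ε * t) ^ 3 := by
      have hs : 0 ≤ δ / ε * t := by positivity
      nlinarith [mul_nonneg hs hs, mul_nonneg hg₀.le (mul_nonneg hs hs), mul_nonneg hs (mul_nonneg hs hs)]
    set Gs : ι → E3 := fun i => δ • G i with hGs
    have hZs := zs_compact hK Gs Finset.univ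
    have h3 : (volume (msum K δ (zonotope G))).toReal ≤ (volume (zs K Gs Finset.univ)).toReal :=
      ENNReal.toReal_mono hZs.measure_lt_top.ne (measure_mono (msum_subset_zs K G δ))
    have h4 := volume_zs_le hK hKc hρ hB Gs Finset.univ
    have e1 : ∑ i, ‖Gs i‖ = δ * ∑ i, ‖G i‖ := by
      rw [Finset.mul_sum]
      apply Finset.sum_congr rfl
      intro i _
      rw [hGs]
      simp only
      rw [norm_smul, Real.norm_of_nonneg hδ0.le]
    have e2 : ∑ i, HH K (Gs i) = δ * SS := by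
      rw [hSS, Finset.mul_sum]
      apply Finset.sum_congr rfl
      intro i _
      exact HH_smul K (G i) hδ0
    rw [e1, e2] at h4
    have e3 : (δ * ∑ i, ‖G i‖) / ρ = δ * D := by
      rw [hD]
      ring
    rw [e3, hv] at h4
    have h5 : g₀ ^ 3 + 3 * g₀ ^ 2 * (δ / ε * t) ≤ g₀ ^ 3 + 2 * (1 + δ * D) ^ 2 * (δ * SS) :=
      h2.trans (hbm.trans (h3.trans h4))
    have h6 : δ * (3 * g₀ ^ 2 * t / ε) ≤ δ * (2 * (1 + δ * D) ^ 2 * SS) := by
      have e1 : δ * (3 * g₀ ^ 2 * t / ε) = 3 * g₀ ^ 2 * (δ / ε * t) := by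
        field_simp
      rw [e1]
      nlinarith
    exact le_of_mul_le_mul_left h6 hδ0
  have hlim : Tendsto (fun δ : ℝ => 2 * (1 + δ * D) ^ 2 * SS) (𝓝[>] 0)
      (𝓝 (2 * (1 + 0 * D) ^ 2 * SS)) := by
    have hc : Continuous fun δ : ℝ => 2 * (1 + δ * D) ^ 2 * SS := by fun_prop
    exact (hc.tendsto 0).mono_left nhdsWithin_le_nhds
  have hle : 3 * g₀ ^ 2 * t / ε ≤ 2 * (1 + 0 * D) ^ 2 * SS := ge_of_tendsto hlim (by
    filter_upwards [Ioo_mem_nhdsGT hε0] with δ hδ
    exact key δ hδ)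
  have hle2 : 3 * g₀ ^ 2 * t / ε ≤ 2 * SS := by
    simpa using hle
  have hg2 : 0 < g₀ ^ 2 := by positivity
  have h6 : t ≤ ε * F := by
    rw [div_le_iff₀ hε0] at hle2
    rw [hF]
    have : t * g₀ ^ 2 ≤ ε * (2 / 3 * SS) := by nlinarith
    calc t = t * g₀ ^ 2 / g₀ ^ 2 := by field_simp
      _ ≤ ε * (2 / 3 * SS) / g₀ ^ 2 := by gcongr
      _ = _ := by ring
  rw [htd] at h6
  linarith

/-- Sandwich data for the projection body and its projection body. -/
lemma gens_data {K : Set E3} (hK : IsCompact K) (hKc : Convex ℝ K) {ρ : ℝ} (hρ : 0 < ρ)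
    (hB : Metric.closedBall (0 : E3) ρ ⊆ K) {η : ℝ} (hη : 0 < η) :
    ∃ (ι : Type) (_ : Fintype ι) (g : ι → E3),
      (volume (zonotope g)).toReal ≤ ((1 + η) ^ 2) ^ 3 * (volume (projBodyOf K)).toReal ∧
      projBodyOf (projBodyOf K) ⊆ zonotope (projGen g) ∧
      2 / 3 * ∑ p, HH K (projGen g p) ≤ (volume (zonotope g)).toReal ∧
      (volume K).toReal ^ 2 * (volume (zonotope (projGen g))).toReal
        ≤ (volume (zonotope g)).toReal ^ 3 := by
  classical
  obtain ⟨ι, _, g, hg⟩ := exists_gens hK hKc hρ hB hη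
  have ht : 0 < (1 + η) ^ 2 := by positivity
  have hsub := zon_subset (t := (1 + η) ^ 2) ht (g := g) (K := K) fun v hv => (hg v hv).2
  have hsub2 := subset_zon (g := g) (K := K) fun v hv => (hg v hv).1
  have hWc : IsCompact (projBodyOf K) :=
    (zon_compact g).of_isClosed_subset (projBodyOf_closed K) hsub2
  refine ⟨ι, inferInstance, g, ?_, ?_, ?_, ?_⟩
  · rw [← vol_smul3_real ht.le]
    exact ENNReal.toReal_mono (hWc.smul _).measure_lt_top.ne (measure_mono hsub)
  · apply subset_zon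
    intro u hu
    have h1 := projArea_le_of_subset hWc (zon_compact g) (t := 1) zero_le_one
      (by simpa using hsub2) hu
    have h2 := (isProjBody_zonotope g).support u hu
    rw [zon_supp] at h2
    rw [h2]
    simpa using h1
  · have h2 : ∑ p, HH K (projGen g p) ≤ 2 * D3 g := by
      rw [← sum_proj]
      exact Finset.sum_le_sum fun p _ => HH_le_sum (fun v hv => (hg v hv).1) _
    rw [toReal_volume_zonotope g]
    linarith
  · exact key_cube hK hKc hρ hB (g := g) fun v hv => (hg v hv).1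

lemma tendsto_eta (A : ℝ) : Tendsto (fun η : ℝ => ((1 + η) ^ 2) ^ 3 * A) (𝓝[>] 0) (𝓝 A) := by
  have hc : Continuous fun η : ℝ => ((1 + η) ^ 2) ^ 3 * A := by fun_prop
  have := (hc.tendsto 0).mono_left (nhdsWithin_le_nhds (s := Ioi 0))
  simpa using this

/-- **Minkowski's inequality for `K` and `Π² K`.** -/
theorem mink_general {K : Set E3} (hK : IsCompact K) (hKc : Convex ℝ K) {ρ : ℝ} (hρ : 0 < ρ)
    (hB : Metric.closedBall (0 : E3) ρ ⊆ K) :
    (volume K).toReal ^ 2 * (volume (projBodyOf (projBodyOf K))).toReal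
      ≤ (volume (projBodyOf K)).toReal ^ 3 := by
  set A := (volume (projBodyOf K)).toReal with hA
  have hA0 : 0 ≤ A := ENNReal.toReal_nonneg
  have key : ∀ η : ℝ, 0 < η → (volume K).toReal ^ 2 * (volume (projBodyOf (projBodyOf K))).toReal
      ≤ (((1 + η) ^ 2) ^ 3 * A) ^ 3 := by
    intro η hη
    obtain ⟨ι, _, g, h1, h2, -, h4⟩ := gens_data hK hKc hρ hB hη
    have h5 : (volume (projBodyOf (projBodyOf K))).toReal ≤ (volume (zonotope (projGen g))).toReal :=
      ENNReal.toReal_mono (zon_compact _).measure_lt_top.ne (measure_mono h2)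
    calc _ ≤ (volume K).toReal ^ 2 * (volume (zonotope (projGen g))).toReal := by gcongr
      _ ≤ _ := h4
      _ ≤ _ := by
        apply pow_le_pow_left₀ ENNReal.toReal_nonneg h1
  exact ge_of_tendsto ((tendsto_eta A).pow 3) (by
    filter_upwards [self_mem_nhdsWithin] with η hη
    exact key η hη)

/-- **The tangent line inequality for `K` and `Π² K`.** -/
theorem tangent_general {K : Set E3} (hK : IsCompact K) (hKc : Convex ℝ K) {ρ : ℝ} (hρ : 0 < ρ)
    (hB : Metric.closedBall (0 : E3) ρ ⊆ K) {g₀ : ℝ} (hg₀ : 0 < g₀)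
    (hv : (volume K).toReal = g₀ ^ 3) {ε : ℝ} (hε : 0 ≤ ε) :
    (volume (msum K ε (projBodyOf (projBodyOf K)))).toReal
      ≤ (g₀ + ε * ((volume (projBodyOf K)).toReal / g₀ ^ 2)) ^ 3 := by
  set A := (volume (projBodyOf K)).toReal with hA
  have hA0 : 0 ≤ A := ENNReal.toReal_nonneg
  have hg2 : 0 < g₀ ^ 2 := by positivity
  have key : ∀ η : ℝ, 0 < η → (volume (msum K ε (projBodyOf (projBodyOf K)))).toReal
      ≤ (g₀ + ε * (((1 + η) ^ 2) ^ 3 * A / g₀ ^ 2)) ^ 3 := by
    intro η hη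
    obtain ⟨ι, _, g, h1, h2, h3, -⟩ := gens_data hK hKc hρ hB hη
    have h5 : (volume (msum K ε (projBodyOf (projBodyOf K)))).toReal
        ≤ (volume (msum K ε (zonotope (projGen g)))).toReal :=
      ENNReal.toReal_mono (msum_compact hK (zon_compact _) ε).measure_lt_top.ne
        (measure_mono (msum_mono h2 ε))
    have h6 := tangent_zon hK hKc hρ hB (projGen g) hg₀ hv hε
    refine h5.trans (h6.trans ?_)
    have hS : 0 ≤ ∑ p, HH K (projGen g p) := Finset.sum_nonneg fun _ _ => HH_nonneg _ _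
    apply pow_le_pow_left₀ (by positivity)
    have h7 : 2 / 3 * ∑ p, HH K (projGen g p) ≤ ((1 + η) ^ 2) ^ 3 * A := h3.trans h1
    gcongr
  have hlim : Tendsto (fun η : ℝ => (g₀ + ε * (((1 + η) ^ 2) ^ 3 * A / g₀ ^ 2)) ^ 3) (𝓝[>] 0)
      (𝓝 ((g₀ + ε * (A / g₀ ^ 2)) ^ 3)) :=
    (((tendsto_eta A).div_const _).const_mul ε |>.const_add g₀).pow 3
  exact ge_of_tendsto hlim (by
    filter_upwards [self_mem_nhdsWithin] with η hη
    exact key η hη)

end

end Vale.Agent.Lib.P237.Petty.Eq
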